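import Vale.Agent.P162.H915.Hybrid

/-!
# P162, part (A) for every even `n = 2m`: at most `7n/8` cards mix in `O(log n)` shuffles
-/

open Finset Equiv

namespace Vale.Agent.P162.H915

open Vale.Agent.P162.S2 (avg avg_const avg_add avg_sub avg_mul_left avg_mul_right avg_mono
  avg_nonneg avg_sum avg_prod avg_comm avg_equiv avg_snoc avg_unique)
open Vale.Agent.P162.S2.Net (mov mov_apply mov_one mov_mul)
open Vale.Agent.P162.H72 (spos thorpNet thorpNet_pos avg_rcoin)

variable {m : ℕ}

/-- The unit mass at `x` minus the uniform law off the cards at `f`. -/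
noncomputable def wt {j : ℕ} (f : Fin j ↪ X m) (x : X m) (z : X m) : ℝ :=
  (if z = x then 1 else 0) - (if z ∈ rg f then 0 else 1) / (2 * m - j : ℕ)

theorem valid_wt {j : ℕ} (hj : 4 * j ≤ 7 * m) (f : Fin j ↪ X m) (x : X m)
    (h : x ∉ Set.range f) : Valid (rg f, wt f x) := by
  have hx : x ∉ rg f := fun h' => h ((mem_rg _ _).1 h')
  have hpos : 0 < 2 * m - j := by
    rw [← card_compl_rg f, card_pos]
    exact ⟨x, by simpa using hx⟩
  have hN : (0 : ℝ) < (2 * m - j : ℕ) := by exact_mod_cast hpos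
  set N : ℝ := ((2 * m - j : ℕ) : ℝ) with hNdef
  have hs := sum_ite_rg f
  refine ⟨?_, ?_, ?_, ?_⟩
  · intro z hz
    simp only at hz
    have : z ≠ x := fun h' => hx (h' ▸ hz)
    simp [wt, this, hz]
  · simp only [wt, sum_sub_distrib, ← sum_div, hs]
    rw [sum_ite_eq' univ x]
    simp [← hNdef, hN.ne']
  · simp only
    have h1 : ∀ z, wt f x z ^ 2 = (if z = x then 1 - 2 / N else 0) +
        (if z ∈ rg f then 0 else 1) * (1 / N ^ 2) := by
      intro z
      by_cases h2 : z = x
      · subst h2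
        simp only [wt, if_true, if_neg hx, ← hNdef]
        field_simp
        ring
      · by_cases h3 : z ∈ rg f
        · simp [wt, h2, h3]
        · simp only [wt, h2, h3, if_false, ← hNdef]
          field_simp
          ring
    simp only [h1, sum_add_distrib, ← sum_mul, hs]
    rw [sum_ite_eq' univ x]
    simp only [mem_univ, if_true, ← hNdef]
    have h4 : N * (1 / N ^ 2) = 1 / N := by field_simp
    rw [h4]
    have h5 : 0 < 1 / N := by positivity
    have h6 : 2 / N = 2 * (1 / N) := by ring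
    rw [h6]
    linarith
  · have : (rg f).card = j := by simp [rg]
    simp only [this]
    exact hj

theorem iter_T₂_of_mem {j : ℕ} (F : (Fin (j + 1) ↪ X m) → ℝ) (t : ℕ) (f : Fin j ↪ X m) (x : X m)
    (h : x ∈ rg f) : (T₂^[t] (split F)) f x = 0 := by
  rw [iter_T₂]
  obtain ⟨a, rfl⟩ := (mem_rg _ _).1 h
  have : ∀ w : Fin t → Coin m, split F (mov (spos m t w) f) (spos m t w (f a)) = 0 := by
    intro w
    exact split_of_mem F ⟨a, rfl⟩
  simp only [this]
  exact avg_const 0

/-- One more card. -/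
theorem hyb_step {t : ℕ} {α : ℝ} (hα : ∀ s : State m, Valid s → K^[t] nrm s ≤ α) {j : ℕ}
    (hj : 4 * j ≤ 7 * m) (f : Fin j ↪ X m) (x : X m) (h : x ∉ Set.range f)
    {F : (Fin (j + 1) ↪ X m) → ℝ} (h0 : ∀ g, 0 ≤ F g) (h1 : ∀ g, F g ≤ 1) :
    (avg fun w : Fin t → Coin m => F (mov (spos m t w) (ins f x h))) ≤
      (avg fun w : Fin t → Coin m => cond F (mov (spos m t w) f)) + √(2 * m * α) := by
  have e1 : (avg fun w : Fin t → Coin m => F (mov (spos m t w) (ins f x h))) =
      (T₂^[t] (split F)) f x := by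
    rw [iter_T₂]
    apply avg_congr
    intro w
    rw [split_mov F h]
  have e2 : (avg fun w : Fin t → Coin m => cond F (mov (spos m t w) f)) =
      (∑ z, (T₂^[t] (split F)) f z) / (2 * m - j : ℕ) := by
    have : ∀ w : Fin t → Coin m, cond F (mov (spos m t w) f) =
        (∑ z, split F (mov (spos m t w) f) (spos m t w z)) * (1 / (2 * m - j : ℕ)) := by
      intro w
      rw [cond, Equiv.sum_comp (spos m t w) fun z => split F (mov (spos m t w) f) z]
      ring
    rw [avg_congr this, avg_mul_right, avg_sum]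
    simp only [iter_T₂]
    ring
  have e3 : (T₂^[t] (split F)) f x - (∑ z, (T₂^[t] (split F)) f z) / (2 * m - j : ℕ) =
      J (split F) t f (wt f x) := by
    rw [J_eq]
    simp only [wt, sub_mul, sum_sub_distrib]
    congr 1
    · simp
    · rw [sum_div]
      apply sum_congr rfl
      intro z _
      by_cases hz : z ∈ rg f
      · rw [iter_T₂_of_mem F t f z hz]
        simp
      · rw [if_neg hz]
        ring
  have e4 : J (split F) t f (wt f x) ≤ √(2 * m * α) := by
    apply Real.le_sqrt_of_sq_le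
    have hΦ : ∀ (f : Fin j ↪ X m) (x : X m), |split F f x| ≤ 1 := by
      intro f x
      rw [abs_of_nonneg (split_nonneg h0 f x)]
      refine (split_le h1 f x).trans ?_
      split <;> norm_num
    refine (J_sq_le hΦ t f _).trans ?_
    gcongr
    exact hα _ (valid_wt hj f x h)
  rw [e1, e2]
  linarith

theorem hybrid {t : ℕ} {α : ℝ} (hα : ∀ s : State m, Valid s → K^[t] nrm s ≤ α) (j : ℕ)
    (hj : 4 * j ≤ 7 * m) (f : Fin j ↪ X m) (F : (Fin j ↪ X m) → ℝ) (h0 : ∀ g, 0 ≤ F g)
    (h1 : ∀ g, F g ≤ 1) :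
    (avg fun w : Fin t → Coin m => F (mov (spos m t w) f)) ≤ avg F + j * √(2 * m * α) := by
  induction j with
  | zero =>
    have h2 : ∀ g : Fin 0 ↪ X m, F g = F f := by
      intro g
      congr 1
      exact Subsingleton.elim _ _
    have h3 : (avg F) = F f := by
      rw [avg_congr h2]
      have : Nonempty (Fin 0 ↪ X m) := ⟨f⟩
      exact avg_const _
    rw [h3, avg_congr fun w => h2 _, avg_const]
    simp
  | succ j ih =>
    obtain ⟨⟨f₀, ⟨x, h⟩⟩, rfl⟩ := (Equiv.embeddingFinSucc j (X m)).symm.surjective f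
    have h2 := hyb_step hα (by omega : 4 * j ≤ 7 * m) f₀ x h h0 h1
    have h3 := ih (by omega) f₀ (cond F) (cond_nonneg h0) (cond_le h1)
    rw [← avg_emb_succ] at h3
    have h4 : ((j + 1 : ℕ) : ℝ) * √(2 * m * α) = j * √(2 * m * α) + √(2 * m * α) := by
      push_cast
      ring
    rw [h4]
    have h5 : (avg fun w : Fin t → Coin m =>
        F (mov (spos m t w) ((Equiv.embeddingFinSucc j (X m)).symm ⟨f₀, ⟨x, h⟩⟩))) ≤
      (avg fun w : Fin t → Coin m => cond F (mov (spos m t w) f₀)) + √(2 * m * α) := h2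
    linarith

/-- The same for cards indexed by any finite type, in the form of the network. -/
theorem mixes_of {t : ℕ} {α : ℝ} (hα : ∀ s : State m, Valid s → K^[t] nrm s ≤ α)
    (al : Type*) [Fintype al] [DecidableEq al] (hal : 4 * Fintype.card al ≤ 7 * m) :
    (thorpNet m).Mixes t (Fintype.card al * √(2 * m * α)) al := by
  intro f F h0 h1
  have e1 : (avg fun w : Fin t → Fin (2 * m) → Bool => F (mov ((thorpNet m).pos 0 t w) f)) =
      avg fun w : Fin t → Coin m => F (mov (spos m t w) f) := by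
    rw [← avg_rcoin m t fun w => F (mov (spos m t w) f)]
    apply avg_congr
    intro w
    rw [thorpNet_pos]
  rw [e1]
  let e := Fintype.equivFin al
  let E : (al ↪ X m) ≃ (Fin (Fintype.card al) ↪ X m) := e.embeddingCongr (Equiv.refl _)
  have h2 := hybrid hα (Fintype.card al) hal (E f) (fun g => F (E.symm g)) (fun g => h0 _)
    (fun g => h1 _)
  rw [avg_equiv E.symm F] at h2
  have h3 : ∀ w : Fin t → Coin m, E.symm (mov (spos m t w) (E f)) = mov (spos m t w) f := by
    intro w
    ext a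
    simp [E, mov_apply]
  simp only [h3] at h2
  exact h2

/-- **Part (A) for every even `n = 2m`**: `k` cards with `k ≤ 7n/8` are `n^{-3}`-close to uniform
after `440 log₂ n` shuffles, from any start. -/
theorem mixes : ∃ m₀ : ℕ, ∀ m : ℕ, m₀ ≤ m → ∀ k : ℕ, 2 * m ≤ 2 ^ k → ∀ T : ℕ, 440 * k ≤ T →
    ∀ (al : Type) [Fintype al] [DecidableEq al], 4 * Fintype.card al ≤ 7 * m →
      (thorpNet m).Mixes T (1 / (2 * m) ^ 3) al := by
  obtain ⟨m₀, hm₀, hsmall⟩ := eventually_small
  refine ⟨m₀, fun m hm k hk T hT al _ _ hal => ?_⟩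
  have hα : ∀ s : State m, Valid s → K^[T] nrm s ≤ 1 / (2 * m) ^ 9 := fun s hs =>
    (iter_nrm_decay (hm₀.trans hm) hk hT hs).trans (hsmall m hm)
  have h1 := mixes_of hα al hal
  intro f F h2 h3
  refine (h1 f F h2 h3).trans ?_
  gcongr
  have hmr : (0 : ℝ) < 2 * m := by
    have : 0 < m := by omega
    positivity
  have h4 : √(2 * m * (1 / (2 * m) ^ 9)) = 1 / (2 * (m : ℝ)) ^ 4 := by
    rw [Real.sqrt_eq_iff_mul_self_eq (by positivity) (by positivity)]
    field_simp
  have h5 : (Fintype.card al : ℝ) ≤ 2 * m := by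
    have : Fintype.card al ≤ 2 * m := by omega
    exact_mod_cast this
  rw [h4]
  have h6 : (Fintype.card al : ℝ) * (1 / (2 * (m : ℝ)) ^ 4) ≤ 2 * m * (1 / (2 * (m : ℝ)) ^ 4) := by
    gcongr
  refine h6.trans (le_of_eq ?_)
  field_simp

end Vale.Agent.P162.H915
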