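import Vale.Agent.P162.S3.Even
import Vale.Agent.P162.H915.Mix

/-!
# P162, part (A) for every even `n`: the form used in `S3/Even.lean`
-/

namespace Vale.Agent.P162.H915

open Vale.Agent.P162.S3

theorem mixEven : MixEven := by
  obtain ⟨m₀, h⟩ := mixes
  refine ⟨880, m₀ + 1, fun m hm T hT α _ _ hα => ?_⟩
  have h1 : 1 ≤ Nat.log 2 (2 * m) := by
    apply Nat.log_pos (by norm_num)
    omega
  have h2 : 2 * m ≤ 2 ^ (Nat.log 2 (2 * m) + 1) :=
    (Nat.lt_pow_succ_log_self (by norm_num) _).le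
  exact h m (by omega) _ h2 T (by omega) α (by omega)

end Vale.Agent.P162.H915
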