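import Mathlib
import Vale.Agent.P162.Defs
import Vale.Agent.P162.S2.Defs

/-!
# P162, part (A) for every even `n = 2 * m`: positions, coins, one shuffle

The positions are `Fin (2 * m)`; the switch `y : Fin m` has the inputs `inp false y = y`,
`inp true y = m + y` and the outputs `out false y = 2 y`, `out true y = 2 y + 1`.
-/

open Finset Equiv

namespace Vale.Agent.P162.H915

open Vale.Agent.P162.S2 (avg avg_const avg_add avg_sub avg_mul_left avg_mul_right avg_mono
  avg_nonneg avg_sum avg_prod avg_comm avg_equiv)

/-- The positions. -/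
abbrev X (m : ℕ) := Fin (2 * m)

/-- The coins of one shuffle. -/
abbrev Coin (m : ℕ) := Fin m → Bool

variable {m : ℕ}

/-- The inputs of the switch `y`. -/
def inp (b : Bool) (y : Fin m) : X m := ⟨(y : ℕ) + (if b then m else 0), by split <;> omega⟩

/-- The outputs of the switch `y`. -/
def out (b : Bool) (y : Fin m) : X m := ⟨2 * (y : ℕ) + (if b then 1 else 0), by split <;> omega⟩

/-- Positions as inputs of switches. -/
def einp (m : ℕ) : Bool × Fin m ≃ X m where
  toFun p := inp p.1 p.2
  invFun x := (decide (m ≤ (x : ℕ)), ⟨if m ≤ (x : ℕ) then (x : ℕ) - m else x, by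
    split <;> omega⟩)
  left_inv p := by
    rcases p with ⟨b, y⟩
    have := y.isLt
    have h : ¬ (m ≤ (y : ℕ)) := by omega
    cases b <;> simp [inp, h]
  right_inv x := by
    have := x.isLt
    by_cases h : m ≤ (x : ℕ)
    · apply Fin.ext
      simp [inp, h]
    · apply Fin.ext
      simp [inp, h]

/-- Positions as outputs of switches. -/
def eout (m : ℕ) : Bool × Fin m ≃ X m where
  toFun p := out p.1 p.2
  invFun x := (decide ((x : ℕ) % 2 = 1), ⟨(x : ℕ) / 2, by omega⟩)
  left_inv p := by
    rcases p with ⟨b, y⟩
    cases b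
    · simp [out]
    · simp [out]
      apply Fin.ext
      simp
      omega
  right_inv x := by
    apply Fin.ext
    by_cases h : (x : ℕ) % 2 = 1
    · simp [out, h]
      omega
    · simp [out, h]
      omega

theorem einp_apply (b : Bool) (y : Fin m) : einp m (b, y) = inp b y := rfl

theorem eout_apply (b : Bool) (y : Fin m) : eout m (b, y) = out b y := rfl

/-- The switch entered at the position `x`. -/
def rp (x : X m) : Fin m := ((einp m).symm x).2

/-- The side at which `x` enters its switch. -/
def hb (x : X m) : Bool := ((einp m).symm x).1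

/-- The other input of the switch of `x`. -/
def mate (x : X m) : X m := inp (!hb x) (rp x)

/-- The switch that has `x` as an output. -/
def op (x : X m) : Fin m := ((eout m).symm x).2

/-- The side of `x` as an output. -/
def ob (x : X m) : Bool := ((eout m).symm x).1

@[simp] theorem inp_hb_rp (x : X m) : inp (hb x) (rp x) = x := (einp m).apply_symm_apply x

@[simp] theorem out_ob_op (x : X m) : out (ob x) (op x) = x := (eout m).apply_symm_apply x

@[simp] theorem rp_inp (b : Bool) (y : Fin m) : rp (inp b y) = y := by
  have := (einp m).symm_apply_apply (b, y)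
  rw [einp_apply] at this
  simp [rp, this]

@[simp] theorem hb_inp (b : Bool) (y : Fin m) : hb (inp b y) = b := by
  have := (einp m).symm_apply_apply (b, y)
  rw [einp_apply] at this
  simp [hb, this]

@[simp] theorem op_out (b : Bool) (y : Fin m) : op (out b y) = y := by
  have := (eout m).symm_apply_apply (b, y)
  rw [eout_apply] at this
  simp [op, this]

@[simp] theorem ob_out (b : Bool) (y : Fin m) : ob (out b y) = b := by
  have := (eout m).symm_apply_apply (b, y)
  rw [eout_apply] at this
  simp [ob, this]

@[simp] theorem mate_inp (b : Bool) (y : Fin m) : mate (inp b y) = inp (!b) y := by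
  simp [mate]

@[simp] theorem rp_mate (x : X m) : rp (mate x) = rp x := by simp [mate]

@[simp] theorem hb_mate (x : X m) : hb (mate x) = !hb x := by simp [mate]

@[simp] theorem mate_mate (x : X m) : mate (mate x) = x := by
  conv_rhs => rw [← inp_hb_rp x]
  rw [mate]
  simp

theorem mate_ne (x : X m) : mate x ≠ x := by
  intro h
  have := congrArg hb h
  simp at this

theorem rp_eq_iff (x y : X m) : rp x = rp y ↔ y = x ∨ y = mate x := by
  constructor
  · intro h
    by_cases hb' : hb y = hb x
    · left
      rw [← inp_hb_rp y, ← inp_hb_rp x, h, hb']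
    · right
      rw [mate, h]
      conv_lhs => rw [← inp_hb_rp y]
      congr 1
      cases h1 : hb y <;> cases h2 : hb x <;> simp_all
  · rintro (rfl | rfl)
    · rfl
    · simp

/-- `mate` as a permutation. -/
def mateE (m : ℕ) : Perm (X m) := Function.Involutive.toPerm mate mate_mate

theorem sum_mate (f : X m → ℝ) : ∑ x, f (mate x) = ∑ x, f x :=
  Equiv.sum_comp (mateE m) f

theorem shuffle_inp (c : Coin m) (b : Bool) (y : Fin m) :
    shuffle m c (inp b y) = out (xor b (c y)) y := by
  apply Fin.ext
  have := y.isLt
  cases b <;> cases hc : c y <;> simp [shuffle, inp, out, hc]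

theorem shuffle_apply (c : Coin m) (x : X m) :
    shuffle m c x = out (xor (hb x) (c (rp x))) (rp x) := by
  conv_lhs => rw [← inp_hb_rp x]
  rw [shuffle_inp]

theorem shuffle_symm_out (c : Coin m) (b : Bool) (y : Fin m) :
    (shuffle m c).symm (out b y) = inp (xor b (c y)) y := by
  rw [Equiv.symm_apply_eq, shuffle_inp]
  congr 1
  cases b <;> cases c y <;> rfl

theorem shuffle_symm_apply (c : Coin m) (z : X m) :
    (shuffle m c).symm z = inp (xor (ob z) (c (op z))) (op z) := by
  conv_lhs => rw [← out_ob_op z]
  rw [shuffle_symm_out]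

theorem sum_inp (f : X m → ℝ) : ∑ x, f x = ∑ y, (f (inp false y) + f (inp true y)) := by
  rw [← Equiv.sum_comp (einp m) f, Fintype.sum_prod_type, sum_comm]
  apply sum_congr rfl
  intro y _
  rw [Fintype.sum_bool, add_comm]
  rfl

theorem sum_out (f : X m → ℝ) : ∑ x, f x = ∑ y, (f (out false y) + f (out true y)) := by
  rw [← Equiv.sum_comp (eout m) f, Fintype.sum_prod_type, sum_comm]
  apply sum_congr rfl
  intro y _
  rw [Fintype.sum_bool, add_comm]
  rfl

/-! ### Averages over coins -/

theorem avg_bool (f : Bool → ℝ) : avg f = (f false + f true) / 2 := by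
  simp [avg, add_comm]

/-- Independence: the average of a product over the coins is the product of the averages. -/
theorem avg_prod_coins {ι : Type*} [Fintype ι] [DecidableEq ι] (f : ι → Bool → ℝ) :
    avg (fun c : ι → Bool => ∏ y, f y (c y)) = ∏ y, avg (f y) := by
  simp only [avg]
  rw [Finset.prod_div_distrib]
  congr 1
  · rw [Finset.prod_univ_sum]
    apply Finset.sum_congr
    · ext c
      simp
    · intros; rfl
  · simp

theorem avg_congr {α : Type*} [Fintype α] {f g : α → ℝ} (h : ∀ a, f a = g a) : avg f = avg g := by
  have : f = g := funext h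
  rw [this]

/-- The coins in `A` and outside `A` are independent. -/
theorem avg_mul_of_disjoint {ι : Type*} [Fintype ι] [DecidableEq ι] (A B : Set ι)
    (hAB : Disjoint A B) (f g : (ι → Bool) → ℝ)
    (hf : ∀ c c', (∀ y ∈ A, c y = c' y) → f c = f c')
    (hg : ∀ c c', (∀ y ∈ B, c y = c' y) → g c = g c') :
    avg (fun c => f c * g c) = avg f * avg g := by
  classical
  let e := Equiv.piEquivPiSubtypeProd (fun y => y ∈ A) (fun _ : ι => Bool)
  let cA : ({y // y ∈ A} → Bool) → ι → Bool := fun a => e.symm (a, fun _ => false)
  let cB : ({y // y ∉ A} → Bool) → ι → Bool := fun b => e.symm (fun _ => false, b)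
  have h1 : ∀ p : ({y // y ∈ A} → Bool) × ({y // y ∉ A} → Bool),
      f (e.symm p) = f (cA p.1) := by
    intro p
    apply hf
    intro y hy
    simp [e, cA, Equiv.piEquivPiSubtypeProd, hy]
  have h2 : ∀ p : ({y // y ∈ A} → Bool) × ({y // y ∉ A} → Bool),
      g (e.symm p) = g (cB p.2) := by
    intro p
    apply hg
    intro y hy
    have : y ∉ A := fun h => (Set.disjoint_left.mp hAB) h hy
    simp [e, cB, Equiv.piEquivPiSubtypeProd, this]
  have h3 : avg (fun c => f c * g c) = avg fun p => f (e.symm p) * g (e.symm p) :=
    (avg_equiv e.symm (fun c => f c * g c)).symm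
  have h4 : avg f = avg fun p => f (e.symm p) := (avg_equiv e.symm f).symm
  have h5 : avg g = avg fun p => g (e.symm p) := (avg_equiv e.symm g).symm
  rw [h3, h4, h5]
  simp only [h1, h2]
  rw [avg_prod, avg_prod, avg_prod]
  simp only [avg_mul_left, avg_mul_right, avg_const]

end Vale.Agent.P162.H915
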