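import Vale.Agent.P162.H915.Occ

/-!
# P162, part (A) for every even `n`: decay of the conditional square norm
-/

open Finset Equiv

namespace Vale.Agent.P162.H915

open Vale.Agent.P162.S2 (avg avg_const avg_add avg_sub avg_mul_left avg_mul_right avg_mono
  avg_nonneg avg_sum avg_prod avg_comm avg_equiv)

variable {m : ℕ}

/-- The exceptional probability. -/
noncomputable def eps (m : ℕ) : ℝ := 2 * m * Real.exp (-(243 / 524288 * m))

theorem eps_nonneg (m : ℕ) : 0 ≤ eps m := by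
  unfold eps
  positivity

theorem iter_succ_nrm (t : ℕ) {s : State m} (hs : Valid s) :
    K^[t + 1] nrm s = K^[t] nrm s / 2 + K^[t] occ s / 2 + K^[t] crs s / 2 := by
  rw [Function.iterate_succ, Function.comp]
  have h1 : K^[t] (K nrm) s =
      K^[t] (fun s => (1 / 2 * nrm s + 1 / 2 * occ s) + 1 / 2 * crs s) s := by
    apply iter_congr t _ hs
    intro s hs
    rw [K_nrm hs]
    ring
  rw [h1, iter_add t (fun s => 1 / 2 * nrm s + 1 / 2 * occ s) (fun s => 1 / 2 * crs s),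
    iter_add t (fun s => 1 / 2 * nrm s) (fun s => 1 / 2 * occ s), iter_mul_left, iter_mul_left,
    iter_mul_left]
  ring

theorem iter_occ_le' {q t : ℕ} (h1 : 2 ^ q ≤ m) (h2 : m < 2 ^ (q + 1)) (ht : q + 7 ≤ t)
    {s : State m} (hs : Valid s) : K^[t] occ s ≤ 15 / 16 * K^[t] nrm s + eps m := by
  obtain ⟨u, rfl⟩ := Nat.exists_eq_add_of_le ht
  have e1 : q + 7 + u = (u + 7) + q := by omega
  rw [e1, Function.iterate_add_apply K (u + 7) q occ, Function.iterate_add_apply K (u + 7) q nrm]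
  calc K^[u + 7] (K^[q] occ) s
      ≤ K^[u + 7] (fun s => 15 / 16 * K^[q] nrm s + bad q s) s :=
        iter_mono _ (fun s hs => iter_occ_le h1 hs) hs
    _ = 15 / 16 * K^[u + 7] (K^[q] nrm) s + K^[u + 7] (bad q) s := by
        rw [iter_add _ (fun s => 15 / 16 * K^[q] nrm s) (bad q), iter_mul_left]
    _ ≤ _ := by
        gcongr
        rw [Function.iterate_add_apply]
        calc K^[u] (K^[7] (bad q)) s ≤ K^[u] (fun _ => eps m) s :=
              iter_mono _ (fun s hs => iter_bad_le h2 hs) hs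
          _ = eps m := by rw [iter_const]

theorem iter_crs_le' {L t : ℕ} (hm : 0 < m) (hL : 12 * (m : ℝ) ^ 3 ≤ 4 ^ L) (ht : L ≤ t)
    {s : State m} (hs : Valid s) : K^[t] crs s ≤ 3 / m * K^[t - L] nrm s := by
  obtain ⟨u, rfl⟩ := Nat.exists_eq_add_of_le ht
  have e1 : L + u = u + L := by omega
  rw [Nat.add_sub_cancel_left, e1, Function.iterate_add_apply]
  calc K^[u] (K^[L] crs) s ≤ K^[u] (fun s => 3 / m * nrm s) s :=
        iter_mono _ (fun s hs => iter_crs_le hm hL hs) hs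
    _ = 3 / m * K^[u] nrm s := by rw [iter_mul_left]

/-- The recursion for the expected square norm. -/
theorem rec_nrm {q L t : ℕ} (h1 : 2 ^ q ≤ m) (h2 : m < 2 ^ (q + 1))
    (hL : 12 * (m : ℝ) ^ 3 ≤ 4 ^ L) (hq : q + 7 ≤ L) (ht : L ≤ t) {s : State m} (hs : Valid s) :
    K^[t + 1] nrm s ≤ 31 / 32 * K^[t] nrm s + (3 / (2 * m) * K^[t - L] nrm s + eps m / 2) := by
  have hm : 0 < m := by
    have : 0 < 2 ^ q := by positivity
    omega
  rw [iter_succ_nrm t hs]
  have h3 := iter_occ_le' h1 h2 (hq.trans ht) hs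
  have h4 := iter_crs_le' hm hL ht hs
  have h5 : (3 : ℝ) / (2 * m) = 3 / m / 2 := by ring
  rw [h5]
  linarith

theorem iter_nrm_nonneg (t : ℕ) (s : State m) : 0 ≤ K^[t] nrm s := by
  rw [nrm_eq, iter_sum]
  exact sum_nonneg fun x _ => iter_sqx_nonneg t x s

/-- One window of length `L`. -/
theorem window {q L : ℕ} (h1 : 2 ^ q ≤ m) (h2 : m < 2 ^ (q + 1))
    (hL : 12 * (m : ℝ) ^ 3 ≤ 4 ^ L) (hq : q + 7 ≤ L) (hL2 : ((31 : ℝ) / 32) ^ L ≤ 1 / (2 * m))
    (j : ℕ) {s : State m} (hs : Valid s) :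
    K^[j + 2 * L] nrm s ≤ 49 / m * K^[j] nrm s + 16 * eps m := by
  have hm : 0 < m := by
    have : 0 < 2 ^ q := by positivity
    omega
  have hm' : (0 : ℝ) < m := by exact_mod_cast hm
  set B : ℝ := 3 / (2 * m) * K^[j] nrm s + eps m / 2 with hB
  have hB0 : 0 ≤ B := by
    have := iter_nrm_nonneg j s
    have := eps_nonneg m
    positivity
  have key : ∀ i, K^[j + L + i] nrm s ≤ (31 / 32) ^ i * K^[j + L] nrm s + 32 * B := by
    intro i
    induction i with
    | zero =>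
      simp only [add_zero, pow_zero, one_mul]
      linarith
    | succ i ih =>
      have h3 := rec_nrm (t := j + L + i) h1 h2 hL hq (by omega) hs
      have h4 : K^[j + L + i - L] nrm s ≤ K^[j] nrm s := iter_nrm_anti (by omega) hs
      have h5 : (3 : ℝ) / (2 * m) * K^[j + L + i - L] nrm s ≤ 3 / (2 * m) * K^[j] nrm s := by
        gcongr
      rw [← add_assoc, pow_succ]
      nlinarith
  have h6 := key L
  have e : j + L + L = j + 2 * L := by omega
  rw [e] at h6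
  have h7 : K^[j + L] nrm s ≤ K^[j] nrm s := iter_nrm_anti (by omega) hs
  have h8 : ((31 : ℝ) / 32) ^ L * K^[j + L] nrm s ≤ 1 / (2 * m) * K^[j] nrm s := by
    have := iter_nrm_nonneg (j + L) s
    gcongr
  have h9 : (1 : ℝ) / (2 * m) * K^[j] nrm s + 32 * B ≤ 49 / m * K^[j] nrm s + 16 * eps m := by
    have h10 : (49 : ℝ) / m * K^[j] nrm s =
        1 / (2 * m) * K^[j] nrm s + 32 * (3 / (2 * m)) * K^[j] nrm s +
        (1 / (2 * m)) * K^[j] nrm s := by
      field_simp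
      ring
    have h11 : 0 ≤ (1 : ℝ) / (2 * m) * K^[j] nrm s := by
      have := iter_nrm_nonneg j s
      positivity
    rw [hB, h10]
    linarith
  linarith

theorem windows {q L : ℕ} (h1 : 2 ^ q ≤ m) (h2 : m < 2 ^ (q + 1))
    (hL : 12 * (m : ℝ) ^ 3 ≤ 4 ^ L) (hq : q + 7 ≤ L) (hL2 : ((31 : ℝ) / 32) ^ L ≤ 1 / (2 * m))
    (hm : 98 ≤ m) (J : ℕ) {s : State m} (hs : Valid s) :
    K^[J * (2 * L)] nrm s ≤ (49 / m) ^ J + 32 * eps m := by
  have hm' : (98 : ℝ) ≤ m := by exact_mod_cast hm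
  induction J with
  | zero =>
    have h3 : nrm s ≤ 1 := hs.norm
    have := eps_nonneg m
    simp only [Nat.zero_mul, Function.iterate_zero, id, pow_zero]
    linarith
  | succ J ih =>
    have h3 := window h1 h2 hL hq hL2 (J * (2 * L)) hs
    have e : (J + 1) * (2 * L) = J * (2 * L) + 2 * L := by ring
    rw [e]
    have h4 : (49 : ℝ) / m ≤ 1 / 2 := by
      rw [div_le_div_iff₀ (by linarith) (by norm_num)]
      linarith
    have h5 : (0 : ℝ) ≤ 49 / m := by positivity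
    have h6 := eps_nonneg m
    calc K^[J * (2 * L) + 2 * L] nrm s ≤ 49 / m * K^[J * (2 * L)] nrm s + 16 * eps m := h3
      _ ≤ 49 / m * ((49 / m) ^ J + 32 * eps m) + 16 * eps m := by gcongr
      _ ≤ _ := by
        rw [pow_succ]
        nlinarith

/-- (A1): decay of the expected square norm in `440 k` steps, `2m ≤ 2^k`. -/
theorem iter_nrm_decay {k t : ℕ} (hm : 98 ≤ m) (hk : 2 * m ≤ 2 ^ k) (ht : 440 * k ≤ t)
    {s : State m} (hs : Valid s) : K^[t] nrm s ≤ (49 / m) ^ 10 + 32 * eps m := by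
  have hm1 : (98 : ℝ) ≤ m := by exact_mod_cast hm
  have hk' : (2 * m : ℝ) ≤ 2 ^ k := by exact_mod_cast hk
  have hk0 : 0 < k := by
    rcases Nat.eq_zero_or_pos k with h | h
    · subst h
      simp at hk
      omega
    · exact h
  obtain ⟨q, h1, h2⟩ : ∃ q, 2 ^ q ≤ m ∧ m < 2 ^ (q + 1) :=
    ⟨Nat.log 2 m, Nat.pow_log_le_self 2 (by omega), Nat.lt_pow_succ_log_self (by norm_num) m⟩
  have hqk : q < k := by
    by_contra h
    have : 2 ^ k ≤ 2 ^ q := Nat.pow_le_pow_right (by norm_num) (not_lt.1 h)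
    omega
  refine (iter_nrm_anti ht hs).trans ?_
  have e : 440 * k = 10 * (2 * (22 * k)) := by ring
  rw [e]
  apply windows h1 h2 _ _ _ hm 10 hs
  · have h3 : (4 : ℝ) ^ (22 * k) = (2 ^ k) ^ 44 := by
      have : (4 : ℝ) = 2 ^ 2 := by norm_num
      rw [this, ← pow_mul, ← pow_mul]
      congr 1
      ring
    rw [h3]
    have h4 : (1 : ℝ) ≤ 2 * m := by linarith
    have h5 : 12 * (m : ℝ) ^ 3 ≤ (2 * m) ^ 4 := by
      have h6 : (0 : ℝ) ≤ m ^ 3 := by positivity
      have h7 : (2 * (m : ℝ)) ^ 4 = 16 * (m ^ 3 * m) := by ring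
      rw [h7]
      nlinarith
    have h8 : (2 * (m : ℝ)) ^ 4 ≤ (2 * m) ^ 44 := pow_le_pow_right₀ h4 (by norm_num)
    have h9 : (2 * (m : ℝ)) ^ 44 ≤ (2 ^ k) ^ 44 := by gcongr
    exact h5.trans (h8.trans h9)
  · omega
  · rw [pow_mul]
    calc (((31 : ℝ) / 32) ^ 22) ^ k ≤ (1 / 2) ^ k := by
          gcongr
          norm_num
      _ = 1 / 2 ^ k := by rw [div_pow, one_pow]
      _ ≤ 1 / (2 * m) := by gcongr

/-- For large `m` the bound of `iter_nrm_decay` is at most `(2m)^{-9}`. -/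
theorem eventually_small : ∃ m₀ : ℕ, 98 ≤ m₀ ∧ ∀ m : ℕ, m₀ ≤ m →
    (49 / (m : ℝ)) ^ 10 + 32 * eps m ≤ 1 / (2 * m) ^ 9 := by
  have h1 : Filter.Tendsto (fun x : ℝ => x ^ 10 * Real.exp (-(243 / 524288) * x)) Filter.atTop
      (nhds 0) := by
    have := Real.tendsto_pow_mul_exp_neg_atTop_nhds_zero 10
    have h2 : Filter.Tendsto (fun x : ℝ => (243 / 524288) * x) Filter.atTop Filter.atTop :=
      Filter.Tendsto.const_mul_atTop (by norm_num) Filter.tendsto_id
    have h3 := (this.comp h2).const_mul ((524288 / 243 : ℝ) ^ 10)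
    rw [mul_zero] at h3
    refine h3.congr ?_
    intro x
    simp only [Function.comp]
    rw [mul_pow, ← mul_assoc, ← mul_assoc, ← mul_pow]
    norm_num
  have h2 : Filter.Tendsto (fun m : ℕ => (m : ℝ) ^ 10 * Real.exp (-(243 / 524288) * m))
      Filter.atTop (nhds 0) := h1.comp tendsto_natCast_atTop_atTop
  have h3 : ∀ᶠ m : ℕ in Filter.atTop,
      (m : ℝ) ^ 10 * Real.exp (-(243 / 524288) * m) < 1 / (2 * 64 * 2 ^ 9) :=
    h2.eventually_lt_const (by positivity)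
  have h4 : ∀ᶠ m : ℕ in Filter.atTop, 2 * 49 ^ 10 * 2 ^ 9 ≤ m :=
    Filter.eventually_ge_atTop _
  obtain ⟨m₀, hm₀⟩ := Filter.eventually_atTop.1 (h3.and h4)
  refine ⟨max m₀ 98, le_max_right _ _, fun m hm => ?_⟩
  obtain ⟨h5, h6⟩ := hm₀ m (le_trans (le_max_left _ _) hm)
  have hm98 : 98 ≤ m := le_trans (le_max_right _ _) hm
  have hmr : (0 : ℝ) < m := by
    have : 0 < m := by omega
    exact_mod_cast this
  have h6' : (2 * 49 ^ 10 * 2 ^ 9 : ℝ) ≤ m := by exact_mod_cast h6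
  have h7 : (49 / (m : ℝ)) ^ 10 ≤ 1 / 2 * (1 / (2 * m) ^ 9) := by
    rw [div_pow, mul_pow, div_mul_div_comm, one_mul, div_le_div_iff₀ (by positivity) (by positivity)]
    have : (m : ℝ) ^ 10 = m ^ 9 * m := by ring
    rw [this]
    have h8 : (0 : ℝ) < m ^ 9 := by positivity
    nlinarith
  have h8 : 32 * eps m ≤ 1 / 2 * (1 / (2 * m) ^ 9) := by
    unfold eps
    have e : -(243 / 524288 * (m : ℝ)) = -(243 / 524288) * m := by ring
    rw [e, mul_pow, div_mul_div_comm, one_mul, le_div_iff₀ (by positivity)]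
    have h9 := h5.le
    rw [le_div_iff₀ (by norm_num)] at h9
    calc 32 * (2 * (m : ℝ) * Real.exp (-(243 / 524288) * m)) * (2 * (2 ^ 9 * m ^ 9))
        = (m : ℝ) ^ 10 * Real.exp (-(243 / 524288) * m) * (2 * 64 * 2 ^ 9) := by ring
      _ ≤ 1 := h9
  linarith

end Vale.Agent.P162.H915
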