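import Vale.Agent.P162.S2.Col2
import Vale.Agent.P162.H72.ThorpNet
import Vale.Agent.P162.H915.Rec

/-!
# P162, part (A) for every even `n`: the hybrid over the cards
-/

open Finset Equiv

namespace Vale.Agent.P162.H915

open Vale.Agent.P162.S2 (avg avg_const avg_add avg_sub avg_mul_left avg_mul_right avg_mono
  avg_nonneg avg_sum avg_prod avg_comm avg_equiv avg_snoc avg_unique)
open Vale.Agent.P162.S2.Net (mov mov_apply mov_one mov_mul)
open Vale.Agent.P162.H72 (spos)

variable {m : ℕ} {ι : Type*} [Fintype ι]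

/-- The positions of the cards. -/
def rg (f : ι ↪ X m) : Finset (X m) := univ.map f

theorem mem_rg (f : ι ↪ X m) (x : X m) : x ∈ rg f ↔ ∃ a, f a = x := by simp [rg]

theorem rg_mov (g : Perm (X m)) (f : ι ↪ X m) : rg (mov g f) = (rg f).map g.toEmbedding := by
  ext x
  rw [mem_rg, mem_map]
  constructor
  · rintro ⟨a, rfl⟩
    exact ⟨f a, (mem_rg _ _).2 ⟨a, rfl⟩, rfl⟩
  · rintro ⟨y, hy, rfl⟩
    obtain ⟨a, rfl⟩ := (mem_rg _ _).1 hy
    exact ⟨a, rfl⟩

/-- One step for the revealed cards and one more card. -/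
noncomputable def T₂ (Ψ : (ι ↪ X m) → X m → ℝ) (f : ι ↪ X m) (x : X m) : ℝ :=
  avg fun c => Ψ (mov (shuffle m c) f) (shuffle m c x)

/-- The functional `∑ v(x) Φ(f, x)` after `t` steps, the weights being averaged. -/
noncomputable def J (Φ : (ι ↪ X m) → X m → ℝ) : ℕ → (ι ↪ X m) → (X m → ℝ) → ℝ
  | 0, f, v => ∑ x, v x * Φ f x
  | t + 1, f, v => avg fun c => J Φ t (mov (shuffle m c) f) (next (rg f, v) c).2

theorem sq_avg_le {α : Type*} [Fintype α] [Nonempty α] (f : α → ℝ) :
    avg f ^ 2 ≤ avg fun a => f a ^ 2 := by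
  have h : (∑ a, f a) ^ 2 ≤ (Fintype.card α : ℝ) * ∑ a, f a ^ 2 := by
    have := @sq_sum_le_card_mul_sum_sq α ℝ _ _ _ _ univ f
    simpa using this
  have hc : (0 : ℝ) < Fintype.card α := by exact_mod_cast Fintype.card_pos
  unfold avg
  rw [div_pow, div_le_div_iff₀ (by positivity) hc]
  nlinarith

theorem J_sq_le {Φ : (ι ↪ X m) → X m → ℝ} (hΦ : ∀ f x, |Φ f x| ≤ 1) (t : ℕ) (f : ι ↪ X m)
    (v : X m → ℝ) : J Φ t f v ^ 2 ≤ 2 * m * K^[t] nrm (rg f, v) := by
  induction t generalizing f v with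
  | zero =>
    simp only [J, Function.iterate_zero, id, nrm]
    have h1 : (∑ x, v x * Φ f x) ^ 2 ≤ (∑ x, v x ^ 2) * ∑ x, Φ f x ^ 2 :=
      sum_mul_sq_le_sq_mul_sq univ v (Φ f)
    have h2 : ∑ x, Φ f x ^ 2 ≤ 2 * m := by
      calc ∑ x, Φ f x ^ 2 ≤ ∑ _x : X m, (1 : ℝ) := by
            apply sum_le_sum
            intro x _
            rw [← sq_abs]
            exact pow_le_one₀ (abs_nonneg _) (hΦ f x)
        _ = 2 * m := by simp
    have h3 : (0 : ℝ) ≤ ∑ x, v x ^ 2 := sum_nonneg fun _ _ => sq_nonneg _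
    nlinarith
  | succ t ih =>
    rw [Function.iterate_succ_apply', J]
    refine (sq_avg_le _).trans ?_
    have h1 : (2 * m : ℝ) * K (K^[t] nrm) (rg f, v) =
        avg fun c => 2 * m * K^[t] nrm (next (rg f, v) c) := by
      rw [avg_mul_left]
      rfl
    rw [h1]
    apply avg_mono
    intro c
    refine (ih _ _).trans (le_of_eq ?_)
    congr 2
    rw [rg_mov]
    rfl

/-- Flip the coin of the switch `y`. -/
def flip (y : Fin m) (c : Coin m) : Coin m := Function.update c y (!c y)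

theorem flip_flip (y : Fin m) (c : Coin m) : flip y (flip y c) = c := by
  funext z
  by_cases h : z = y
  · subst h; simp [flip]
  · simp [flip, h]

theorem avg_flip (y : Fin m) (F : Coin m → ℝ) : avg (fun c => F (flip y c)) = avg F :=
  avg_equiv (Function.Involutive.toPerm (flip y) (flip_flip y)) F

theorem shuffle_flip_of_ne (y : Fin m) (c : Coin m) (x : X m) (h : rp x ≠ y) :
    shuffle m (flip y c) x = shuffle m c x := by
  rw [shuffle_apply, shuffle_apply, flip, Function.update_of_ne h]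

theorem shuffle_flip (c : Coin m) (x : X m) :
    shuffle m (flip (rp x) c) x = shuffle m c (mate x) := by
  rw [shuffle_apply, shuffle_apply, flip, Function.update_self, hb_mate, rp_mate]
  cases hb x <;> cases c (rp x) <;> rfl

/-- The conditional law given the trajectories of the revealed cards. -/
theorem avg_av (Ψ : (ι ↪ X m) → X m → ℝ) (f : ι ↪ X m) (v : X m → ℝ) :
    (avg fun c => ∑ x, av (rg f) v x * Ψ (mov (shuffle m c) f) (shuffle m c x)) =
      avg fun c => ∑ x, v x * Ψ (mov (shuffle m c) f) (shuffle m c x) := by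
  have key : ∀ x : X m, x ∉ rg f → mate x ∉ rg f →
      T₂ Ψ f (mate x) = T₂ Ψ f x := by
    intro x h1 h2
    unfold T₂
    rw [← avg_flip (rp x) fun c => Ψ (mov (shuffle m c) f) (shuffle m c x)]
    apply avg_congr
    intro c
    have h3 : mov (shuffle m (flip (rp x) c)) f = mov (shuffle m c) f := by
      ext a
      rw [mov_apply, mov_apply, shuffle_flip_of_ne]
      intro h
      rcases (rp_eq_iff x (f a)).1 h.symm with h4 | h4
      · exact h1 ((mem_rg _ _).2 ⟨a, h4⟩)
      · exact h2 ((mem_rg _ _).2 ⟨a, h4⟩)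
    rw [h3, shuffle_flip]
  have h1 : ∀ u : X m → ℝ, (avg fun c => ∑ x, u x * Ψ (mov (shuffle m c) f) (shuffle m c x)) =
      ∑ x, u x * T₂ Ψ f x := by
    intro u
    rw [avg_sum]
    apply sum_congr rfl
    intro x _
    rw [avg_mul_left]
    rfl
  rw [h1, h1, sum_inp, sum_inp]
  apply sum_congr rfl
  intro y _
  simp only [av, mate_inp, Bool.not_false, Bool.not_true]
  by_cases h2 : inp false y ∈ rg f <;> by_cases h3 : inp true y ∈ rg f
  · simp [h2, h3]
  · simp [h2, h3]
  · simp [h2, h3]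
  · have h4 := key (inp false y) h2 (by rwa [mate_inp, Bool.not_false])
    rw [mate_inp, Bool.not_false] at h4
    simp only [h2, h3, or_self, if_false, h4]
    ring

theorem J_eq (Φ : (ι ↪ X m) → X m → ℝ) (t : ℕ) (f : ι ↪ X m) (v : X m → ℝ) :
    J Φ t f v = ∑ x, v x * (T₂^[t] Φ) f x := by
  induction t generalizing f v with
  | zero => rfl
  | succ t ih =>
    rw [J, Function.iterate_succ_apply']
    have h1 : ∀ c : Coin m, J Φ t (mov (shuffle m c) f) (next (rg f, v) c).2 =
        ∑ x, av (rg f) v x * (T₂^[t] Φ) (mov (shuffle m c) f) (shuffle m c x) := by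
      intro c
      rw [ih]
      exact sum_next (rg f, v) c fun r z => r * (T₂^[t] Φ) (mov (shuffle m c) f) z
    rw [avg_congr h1, avg_av, avg_sum]
    apply sum_congr rfl
    intro x _
    rw [avg_mul_left]
    rfl

omit [Fintype ι] in
theorem iter_T₂ (Φ : (ι ↪ X m) → X m → ℝ) (t : ℕ) (f : ι ↪ X m) (x : X m) :
    (T₂^[t] Φ) f x = avg fun w : Fin t → Coin m => Φ (mov (spos m t w) f) (spos m t w x) := by
  induction t generalizing Φ with
  | zero =>
    rw [avg_unique]
    simp [spos, mov_one]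
  | succ t ih =>
    rw [Function.iterate_succ, Function.comp, ih, avg_snoc]
    apply avg_congr
    intro w
    apply avg_congr
    intro c
    simp [spos, mov_mul, Fin.init_snoc]

/-! ### Embeddings of `Fin (j + 1)` -/

/-- Add a card at `x` to the cards at `f`. -/
def ins {j : ℕ} (f : Fin j ↪ X m) (x : X m) (h : x ∉ Set.range f) : Fin (j + 1) ↪ X m :=
  (Equiv.embeddingFinSucc j (X m)).symm ⟨f, ⟨x, h⟩⟩

theorem coe_ins {j : ℕ} (f : Fin j ↪ X m) (x : X m) (h : x ∉ Set.range f) :
    (ins f x h : Fin (j + 1) → X m) = Fin.cons x f :=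
  Equiv.coe_embeddingFinSucc_symm _

theorem mov_notMem {j : ℕ} {f : Fin j ↪ X m} {x : X m} (h : x ∉ Set.range f) (g : Perm (X m)) :
    g x ∉ Set.range (mov g f) := by
  rintro ⟨a, ha⟩
  rw [mov_apply] at ha
  exact h ⟨a, g.injective ha⟩

theorem mov_ins {j : ℕ} (f : Fin j ↪ X m) (x : X m) (h : x ∉ Set.range f) (g : Perm (X m)) :
    mov g (ins f x h) = ins (mov g f) (g x) (mov_notMem h g) := by
  apply DFunLike.coe_injective
  rw [coe_ins]
  funext a
  rw [mov_apply, coe_ins]
  refine Fin.cases ?_ ?_ a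
  · rfl
  · intro b
    rfl

open Classical in
/-- `F` as a function of the first `j` cards and the last card. -/
noncomputable def split {j : ℕ} (F : (Fin (j + 1) ↪ X m) → ℝ) (f : Fin j ↪ X m) (x : X m) : ℝ :=
  if h : x ∉ Set.range f then F (ins f x h) else 0

theorem split_mov {j : ℕ} (F : (Fin (j + 1) ↪ X m) → ℝ) {f : Fin j ↪ X m} {x : X m}
    (h : x ∉ Set.range f) (g : Perm (X m)) :
    split F (mov g f) (g x) = F (mov g (ins f x h)) := by
  rw [split, dif_pos (mov_notMem h g), mov_ins]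

theorem split_of_mem {j : ℕ} (F : (Fin (j + 1) ↪ X m) → ℝ) {f : Fin j ↪ X m} {x : X m}
    (h : x ∈ Set.range f) : split F f x = 0 := by
  rw [split, dif_neg (by simpa using h)]

/-- The average over the last card. -/
noncomputable def cond {j : ℕ} (F : (Fin (j + 1) ↪ X m) → ℝ) (f : Fin j ↪ X m) : ℝ :=
  (∑ x, split F f x) / (2 * m - j : ℕ)

theorem card_compl_rg {j : ℕ} (f : Fin j ↪ X m) : ((rg f)ᶜ).card = 2 * m - j := by
  rw [card_compl]
  simp [rg]

theorem split_nonneg {j : ℕ} {F : (Fin (j + 1) ↪ X m) → ℝ} (h0 : ∀ g, 0 ≤ F g)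
    (f : Fin j ↪ X m) (x : X m) : 0 ≤ split F f x := by
  unfold split
  split
  · exact h0 _
  · exact le_rfl

theorem split_le {j : ℕ} {F : (Fin (j + 1) ↪ X m) → ℝ} (h1 : ∀ g, F g ≤ 1)
    (f : Fin j ↪ X m) (x : X m) : split F f x ≤ if x ∈ rg f then 0 else 1 := by
  by_cases h : x ∈ Set.range f
  · rw [split_of_mem F h, if_pos ((mem_rg _ _).2 h)]
  · rw [split, dif_pos h, if_neg (fun h' => h ((mem_rg _ _).1 h'))]
    exact h1 _

theorem cond_nonneg {j : ℕ} {F : (Fin (j + 1) ↪ X m) → ℝ} (h0 : ∀ g, 0 ≤ F g)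
    (f : Fin j ↪ X m) : 0 ≤ cond F f :=
  div_nonneg (sum_nonneg fun x _ => split_nonneg h0 f x) (Nat.cast_nonneg _)

theorem sum_ite_rg {j : ℕ} (f : Fin j ↪ X m) :
    ∑ x, (if x ∈ rg f then (0 : ℝ) else 1) = (2 * m - j : ℕ) := by
  rw [← card_compl_rg f, sum_ite, sum_const_zero, zero_add, sum_const, nsmul_eq_mul, mul_one]
  congr 2
  ext x
  simp

theorem cond_le {j : ℕ} {F : (Fin (j + 1) ↪ X m) → ℝ} (h1 : ∀ g, F g ≤ 1) (f : Fin j ↪ X m) :
    cond F f ≤ 1 := by
  apply div_le_one_of_le₀ _ (Nat.cast_nonneg _)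
  rw [← sum_ite_rg f]
  exact sum_le_sum fun x _ => split_le h1 f x

/-- The average over the embeddings, last card first. -/
theorem avg_emb_succ {j : ℕ} (F : (Fin (j + 1) ↪ X m) → ℝ) :
    avg F = avg (cond F) := by
  classical
  have h1 : ∑ g, F g = ∑ f : Fin j ↪ X m, ∑ x, split F f x := by
    rw [← Equiv.sum_comp (Equiv.embeddingFinSucc j (X m)).symm F, Fintype.sum_sigma]
    apply sum_congr rfl
    intro f _
    have h2 : ∑ x, split F f x = ∑ x ∈ univ.filter (fun x => x ∉ Set.range f), split F f x := by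
      rw [sum_filter]
      apply sum_congr rfl
      intro x _
      split
      · rfl
      · rename_i h
        exact split_of_mem F (by simpa using h)
    have h3 : ∑ y : {i // i ∉ Set.range f}, F ((Equiv.embeddingFinSucc j (X m)).symm ⟨f, y⟩) =
        ∑ y : {i // i ∉ Set.range f}, split F f y := by
      apply sum_congr rfl
      rintro ⟨x, hx⟩ _
      rw [split, dif_pos hx]
      rfl
    rw [h3, h2]
    exact (Finset.sum_subtype (p := fun x => x ∉ Set.range f)
      (univ.filter (fun x => x ∉ Set.range f)) (by intro x; simp) (fun x => split F f x)).symm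
  have h2 : Fintype.card (Fin (j + 1) ↪ X m) = Fintype.card (Fin j ↪ X m) * (2 * m - j) := by
    rw [Fintype.card_embedding_eq, Fintype.card_embedding_eq, Fintype.card_fin, Fintype.card_fin,
      Fintype.card_fin, Nat.descFactorial_succ, mul_comm]
  unfold avg
  simp only [cond]
  rw [h1, h2, ← sum_div, div_div, Nat.cast_mul, mul_comm (Fintype.card (Fin j ↪ X m) : ℝ)]

end Vale.Agent.P162.H915
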