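import Vale.Agent.P162.H915.Step

/-!
# P162, part (A) for every even `n`: the one-card kernel

`p i z x = 2^{-i} #{C < 2^i : 2^i z + C = x mod 2m}` is the probability that the card at `z` is at
`x` after `i` shuffles.
-/

open Finset Equiv

namespace Vale.Agent.P162.H915

open Vale.Agent.P162.S2 (avg avg_const avg_add avg_sub avg_mul_left avg_mul_right avg_mono
  avg_nonneg avg_sum avg_prod avg_comm avg_equiv)

variable {m : ℕ}

/-- The number of `C < 2^i` with `a + C = x` modulo `2m`. -/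
def H (i a : ℕ) (x : X m) : ℕ := ((range (2 ^ i)).filter fun C => (a + C) % (2 * m) = (x : ℕ)).card

theorem H_congr {i a a' : ℕ} (h : a ≡ a' [MOD 2 * m]) (x : X m) : H i a x = H i a' x := by
  unfold H
  congr 1
  apply filter_congr
  intro C _
  have : (a + C) % (2 * m) = (a' + C) % (2 * m) := h.add_right C
  rw [this]

theorem H_succ (i a : ℕ) (x : X m) : H (i + 1) a x = H i a x + H i (a + 2 ^ i) x := by
  unfold H
  have h : range (2 ^ (i + 1)) = range (2 ^ i) ∪ (range (2 ^ i)).map (addLeftEmbedding (2 ^ i)) := by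
    rw [pow_succ, mul_two, range_add]
  rw [h, filter_union, card_union_of_disjoint, filter_map, card_map]
  · congr 2
    ext C
    simp [add_assoc]
  · rw [disjoint_left]
    intro C hC hC'
    simp only [mem_filter, mem_range, mem_map, addLeftEmbedding_apply] at hC hC'
    obtain ⟨⟨D, _, hD⟩, _⟩ := hC'
    omega

theorem H_eq (i a : ℕ) (x : X m) : ∃ e : ℕ, e ≤ 1 ∧ H i a x = 2 ^ i / (2 * m) + e := by
  have hx := x.isLt
  have hm : 0 < 2 * m := by omega
  obtain ⟨v, hv⟩ : ∃ v : ℕ, (a + v) % (2 * m) = x := by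
    refine ⟨x + (2 * m - a % (2 * m)), ?_⟩
    have h1 := Nat.mod_lt a hm
    have h2 := Nat.div_add_mod a (2 * m)
    have h3 : a + ((x : ℕ) + (2 * m - a % (2 * m))) = x + 2 * m * (a / (2 * m) + 1) := by
      rw [mul_add, mul_one]
      omega
    rw [h3, Nat.add_mul_mod_self_left, Nat.mod_eq_of_lt hx]
  have h1 : H i a x = (2 ^ i).count (· ≡ v [MOD 2 * m]) := by
    rw [Nat.count_eq_card_filter_range]
    unfold H
    congr 1
    apply filter_congr
    intro C _
    rw [← hv]
    constructor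
    · intro h
      exact Nat.ModEq.add_left_cancel' a h
    · intro h
      exact h.add_left a
  rw [h1, Nat.count_modEq_card _ hm]
  split
  · exact ⟨1, le_rfl, rfl⟩
  · exact ⟨0, by omega, rfl⟩

theorem H_pos_iff (i a : ℕ) (x : X m) :
    0 < H i a x ↔ ∃ C < 2 ^ i, (a + C) % (2 * m) = (x : ℕ) := by
  unfold H
  rw [card_pos]
  constructor
  · rintro ⟨C, hC⟩
    simp only [mem_filter, mem_range] at hC
    exact ⟨C, hC⟩
  · rintro ⟨C, hC⟩
    exact ⟨C, by simpa using hC⟩

theorem mate_val (x : X m) : (mate x : ℕ) = if (x : ℕ) < m then (x : ℕ) + m else x - m := by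
  obtain ⟨⟨b, y⟩, rfl⟩ := (einp m).surjective x
  have := y.isLt
  rw [einp_apply, mate_inp]
  cases b <;> simp [inp]

theorem mate_mod (x : X m) : ((x : ℕ) + m) % (2 * m) = mate x := by
  rw [mate_val]
  have := x.isLt
  split
  · rw [Nat.mod_eq_of_lt (by omega)]
  · have h : (x : ℕ) + m = (x - m) + 2 * m := by omega
    rw [h, Nat.add_mod_right, Nat.mod_eq_of_lt (by omega)]

/-- A position and its mate have disjoint backward cones for a long time. -/
theorem H_mate {i a : ℕ} (h : 2 ^ i ≤ m) (x : X m) (h1 : 0 < H i a x) : H i a (mate x) = 0 := by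
  by_contra h2
  obtain ⟨C, hC, hC'⟩ := (H_pos_iff _ _ _).1 h1
  obtain ⟨D, hD, hD'⟩ := (H_pos_iff _ _ _).1 (Nat.pos_of_ne_zero h2)
  rw [← mate_mod, ← hC', Nat.mod_add_mod] at hD'
  have h3 : D ≡ C + m [MOD 2 * m] := by
    apply Nat.ModEq.add_left_cancel' a
    rw [Nat.ModEq, hD', add_assoc]
  have hm : 0 < m := by
    have : 0 < 2 ^ i := by positivity
    omega
  have h4 : D % (2 * m) = D := Nat.mod_eq_of_lt (by omega)
  have h5 : (C + m) % (2 * m) = C + m := Nat.mod_eq_of_lt (by omega)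
  rw [Nat.ModEq, h4, h5] at h3
  omega

theorem H_zero (a : ℕ) (x : X m) : H 0 a x = if a % (2 * m) = x then 1 else 0 := by
  unfold H
  split
  · rename_i h
    rw [filter_true_of_mem]
    · simp
    · intro C hC
      simp at hC
      simp [hC, h]
  · rename_i h
    rw [filter_false_of_mem]
    · simp
    · intro C hC
      simp at hC
      simp [hC, h]

/-- The one-card kernel. -/
noncomputable def p (i : ℕ) (z x : X m) : ℝ := (H i (2 ^ i * z) x : ℝ) / 2 ^ i

theorem two_mul_mod (z : X m) : 2 * (z : ℕ) ≡ 2 * (rp z : ℕ) [MOD 2 * m] := by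
  obtain ⟨⟨b, y⟩, rfl⟩ := (einp m).surjective z
  rw [einp_apply, rp_inp]
  cases b
  · simp [inp]
    rfl
  · simp [inp, mul_add, Nat.ModEq]

theorem p_out (i : ℕ) (b : Bool) (z x : X m) :
    p i (out b (rp z)) x = (H i (2 ^ (i + 1) * z + (if b then 2 ^ i else 0)) x : ℝ) / 2 ^ i := by
  unfold p
  congr 2
  apply H_congr
  have h : 2 ^ i * (out b (rp z) : ℕ) = 2 ^ i * (2 * (rp z : ℕ)) + (if b then 2 ^ i else 0) := by
    cases b <;> simp [out, mul_add]
  rw [h, pow_succ, mul_assoc]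
  exact (Nat.ModEq.mul_left _ (two_mul_mod z).symm).add_right _

theorem P_p (i : ℕ) (x : X m) : P (fun z => p i z x) = fun z => p (i + 1) z x := by
  funext z
  simp only [P, p_out]
  unfold p
  rw [H_succ]
  push_cast
  rw [pow_succ]
  simp
  ring

theorem Dl_p (i : ℕ) (z x : X m) :
    Dl (fun z => p i z x) z =
      ((H i (2 ^ (i + 1) * z) x : ℝ) - H i (2 ^ (i + 1) * z + 2 ^ i) x) / 2 ^ i := by
  simp only [Dl, p_out]
  simp
  ring

theorem H_sub_le (i a a' : ℕ) (x x' : X m) : |(H i a x : ℝ) - H i a' x'| ≤ 1 := by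
  obtain ⟨e, he, h⟩ := H_eq i a x
  obtain ⟨e', he', h'⟩ := H_eq i a' x'
  rw [h, h']
  push_cast
  have h1 : (e : ℝ) ≤ 1 := by exact_mod_cast he
  have h2 : (e' : ℝ) ≤ 1 := by exact_mod_cast he'
  have h3 : (0 : ℝ) ≤ e := by positivity
  have h4 : (0 : ℝ) ≤ e' := by positivity
  rw [abs_le]
  constructor <;> linarith

theorem abs_Dl_p (i : ℕ) (z x : X m) : |Dl (fun z => p i z x) z| ≤ 1 / 2 ^ i := by
  rw [Dl_p, abs_div, abs_of_pos (by positivity : (0 : ℝ) < 2 ^ i)]
  gcongr
  exact H_sub_le _ _ _ _ _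

theorem p_zero (z x : X m) : p 0 z x = if z = x then 1 else 0 := by
  unfold p
  rw [H_zero]
  simp [Nat.mod_eq_of_lt z.isLt, Fin.ext_iff]

theorem p_nonneg (i : ℕ) (z x : X m) : 0 ≤ p i z x := by
  unfold p
  positivity

theorem p_le (i : ℕ) (z x : X m) : p i z x ≤ 1 / (2 * m) + 1 / 2 ^ i := by
  obtain ⟨e, he, h⟩ := H_eq i (2 ^ i * z) x
  have hx := x.isLt
  have hm : (0 : ℝ) < 2 * m := by
    have : 0 < m := by omega
    positivity
  unfold p
  rw [h]
  have h1 : (e : ℝ) ≤ 1 := by exact_mod_cast he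
  have h2 : ((2 ^ i / (2 * m) : ℕ) : ℝ) ≤ 2 ^ i / (2 * m) := by
    have := @Nat.cast_div_le ℝ _ _ _ (2 ^ i) (2 * m)
    simpa using this
  push_cast at h2 ⊢
  rw [add_div]
  have h3 : (1 : ℝ) / (2 * m) = (2 ^ i / (2 * m)) / 2 ^ i := by
    field_simp
  rw [h3]
  gcongr

theorem pr_p_zero (v : X m → ℝ) (x : X m) : pr v (fun z => p 0 z x) = v x := by
  simp [pr, p_zero]

/-- Weights of sum zero are tested by a nearly constant kernel. -/
theorem abs_pr_p_le {v : X m → ℝ} (hv : ∑ x, v x = 0) (i : ℕ) (x : X m) :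
    |pr v (fun z => p i z x)| ≤ (∑ z, |v z|) / 2 ^ i := by
  have h1 : pr v (fun z => p i z x) =
      ∑ z, v z * (p i z x - ((2 ^ i / (2 * m) : ℕ) : ℝ) / 2 ^ i) := by
    simp only [mul_sub, sum_sub_distrib, ← sum_mul, hv]
    simp [pr]
  rw [h1, sum_div]
  refine (abs_sum_le_sum_abs _ _).trans (sum_le_sum fun z _ => ?_)
  suffices h0 : |p i z x - ((2 ^ i / (2 * m) : ℕ) : ℝ) / 2 ^ i| ≤ 1 / 2 ^ i by
    rw [abs_mul]
    calc |v z| * |p i z x - ((2 ^ i / (2 * m) : ℕ) : ℝ) / 2 ^ i| ≤ |v z| * (1 / 2 ^ i) := by gcongr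
      _ = |v z| / 2 ^ i := by ring
  obtain ⟨e, he, h⟩ := H_eq i (2 ^ i * z) x
  unfold p
  rw [h]
  have h1 : (e : ℝ) ≤ 1 := by exact_mod_cast he
  have h2 : (0 : ℝ) ≤ e := by positivity
  have h3 : (((2 ^ i / (2 * m) + e : ℕ) : ℝ) / 2 ^ i - ((2 ^ i / (2 * m) : ℕ) : ℝ) / 2 ^ i) =
      e / 2 ^ i := by
    push_cast
    ring
  rw [h3, abs_of_nonneg (by positivity)]
  gcongr

/-! ### The cross term -/

/-- The cross term tested by the kernel. -/
noncomputable def Cr (i : ℕ) (s : State m) : ℝ :=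
  ∑ x, pr s.2 (fun z => p i z x) * pr s.2 (fun z => p i z (mate x))

theorem Cr_zero : Cr 0 = (crs : State m → ℝ) := by
  funext s
  simp [Cr, crs, pr_p_zero]

/-- The covariance coefficient. -/
noncomputable def gam (i : ℕ) (z : X m) : ℝ :=
  ∑ x, Dl (fun z => p i z x) z * Dl (fun z => p i z (mate x)) z

theorem K_Cr (i : ℕ) {s : State m} (h : Valid s) :
    K (Cr i) s = Cr (i + 1) s + (∑ z, if mate z ∈ s.1 then s.2 z ^ 2 * gam i z else 0) / 4 := by
  unfold Cr
  rw [K_sum]
  simp only [K_pr_mul h, P_p, sum_add_distrib]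
  congr 1
  rw [← sum_div, sum_comm]
  congr 1
  apply sum_congr rfl
  intro z _
  split
  · rw [gam, mul_sum]
  · simp

theorem gam_eq_zero {i : ℕ} (h : 2 ^ (i + 1) ≤ m) (z : X m) : gam i z = 0 := by
  apply sum_eq_zero
  intro x _
  have key : ∀ x : X m, Dl (fun z => p i z x) z ≠ 0 → 0 < H (i + 1) (2 ^ (i + 1) * z) x := by
    intro x hx
    rw [H_succ]
    by_contra h0
    apply hx
    rw [Dl_p]
    have h1 : H i (2 ^ (i + 1) * z) x = 0 := by omega
    have h2 : H i (2 ^ (i + 1) * z + 2 ^ i) x = 0 := by omega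
    rw [h1, h2]
    simp
  by_contra h0
  have h1 := key x (left_ne_zero_of_mul h0)
  have h2 := key (mate x) (right_ne_zero_of_mul h0)
  rw [H_mate h x h1] at h2
  exact lt_irrefl _ h2

/-- The bound for the covariance coefficient. -/
noncomputable def gb (m i : ℕ) : ℝ := if 2 ^ (i + 1) ≤ m then 0 else 2 * m / 4 ^ i

theorem gam_le (i : ℕ) (z : X m) : gam i z ≤ gb m i := by
  unfold gb
  split
  · rename_i h
    rw [gam_eq_zero h]
  · calc gam i z ≤ ∑ _x : X m, (1 : ℝ) / 2 ^ i * (1 / 2 ^ i) := by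
          apply sum_le_sum
          intro x _
          refine (le_abs_self _).trans ?_
          rw [abs_mul]
          gcongr
          · exact abs_Dl_p _ _ _
          · exact abs_Dl_p _ _ _
      _ = 2 * m / 4 ^ i := by
          rw [sum_const, card_univ, Fintype.card_fin, nsmul_eq_mul]
          push_cast
          have : (4 : ℝ) ^ i = 2 ^ i * 2 ^ i := by
            rw [← mul_pow]
            norm_num
          rw [this]
          field_simp

theorem gb_nonneg (m i : ℕ) : 0 ≤ gb m i := by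
  unfold gb
  split
  · exact le_rfl
  · positivity

theorem K_Cr_le (i : ℕ) {s : State m} (h : Valid s) :
    K (Cr i) s ≤ Cr (i + 1) s + gb m i / 4 * nrm s := by
  rw [K_Cr i h]
  have : (∑ z, if mate z ∈ s.1 then s.2 z ^ 2 * gam i z else 0) ≤ gb m i * nrm s := by
    rw [nrm, mul_sum]
    apply sum_le_sum
    intro z _
    split
    · rw [mul_comm]
      gcongr
      exact gam_le i z
    · exact mul_nonneg (gb_nonneg _ _) (sq_nonneg _)
  linarith

theorem Cr_le (i : ℕ) {s : State m} (h : Valid s) :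
    Cr i s ≤ 4 * m ^ 2 / 4 ^ i * nrm s := by
  have h1 : (∑ z, |s.2 z|) ^ 2 ≤ 2 * m * nrm s := by
    have := @sq_sum_le_card_mul_sum_sq (X m) ℝ _ _ _ _ univ (fun z => |s.2 z|)
    simpa [nrm] using this
  have h2 : ∀ x : X m, pr s.2 (fun z => p i z x) ^ 2 ≤ 2 * m * nrm s / 4 ^ i := by
    intro x
    have h3 := abs_pr_p_le h.sum i x
    rw [← sq_abs]
    calc |pr s.2 (fun z => p i z x)| ^ 2 ≤ ((∑ z, |s.2 z|) / 2 ^ i) ^ 2 := by gcongr
      _ = (∑ z, |s.2 z|) ^ 2 / 4 ^ i := by
        rw [div_pow, ← pow_mul, mul_comm i, pow_mul]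
        norm_num
      _ ≤ _ := by gcongr
  calc Cr i s ≤ ∑ x : X m, 2 * m * nrm s / 4 ^ i := by
        apply sum_le_sum
        intro x _
        nlinarith [h2 x, h2 (mate x), sq_nonneg
          (pr s.2 (fun z => p i z x) - pr s.2 (fun z => p i z (mate x)))]
    _ = _ := by
        rw [sum_const, card_univ, Fintype.card_fin, nsmul_eq_mul]
        push_cast
        ring

theorem iter_Cr_le (t : ℕ) (i : ℕ) {s : State m} (h : Valid s) :
    K^[t] (Cr i) s ≤ (4 * m ^ 2 / 4 ^ (i + t) + (∑ j ∈ range t, gb m (i + j)) / 4) * nrm s := by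
  induction t generalizing i with
  | zero =>
    simpa using Cr_le i h
  | succ t ih =>
    rw [Function.iterate_succ, Function.comp]
    calc K^[t] (K (Cr i)) s ≤ K^[t] (fun s => Cr (i + 1) s + gb m i / 4 * nrm s) s :=
          iter_mono t (fun s hs => K_Cr_le i hs) h
      _ = K^[t] (Cr (i + 1)) s + gb m i / 4 * K^[t] nrm s := by
          rw [iter_add t (Cr (i + 1)) (fun s => gb m i / 4 * nrm s), iter_mul_left]
      _ ≤ (4 * m ^ 2 / 4 ^ (i + 1 + t) + (∑ j ∈ range t, gb m (i + 1 + j)) / 4) * nrm s +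
            gb m i / 4 * nrm s := by
          gcongr
          · exact ih (i + 1)
          · exact div_nonneg (gb_nonneg _ _) (by norm_num)
          · exact iter_nrm_le t h
      _ = _ := by
          rw [sum_range_succ' _ t]
          have h1 : i + 1 + t = i + (t + 1) := by omega
          have h2 : ∀ j, i + 1 + j = i + (j + 1) := by intro j; omega
          simp only [h1, h2, add_zero]
          ring

theorem sum_gb_le {L : ℕ} (hm : 0 < m) (h : m < 2 ^ L) :
    ∑ j ∈ range L, gb m j ≤ 32 / (3 * m) - (8 * m / 3) / 4 ^ L := by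
  have hm' : (0 : ℝ) < m := by exact_mod_cast hm
  induction L with
  | zero =>
    simp at h
    omega
  | succ L ih =>
    rw [sum_range_succ]
    have hg : gb m L = 2 * m / 4 ^ L := by
      unfold gb
      rw [if_neg (by omega)]
    rw [hg]
    by_cases hL : m < 2 ^ L
    · have := ih hL
      rw [pow_succ]
      have e : (8 * (m : ℝ) / 3) / (4 ^ L * 4) = (8 * m / 3) / 4 ^ L - 2 * m / 4 ^ L := by
        field_simp
        norm_num
      rw [e]
      linarith
    · have h0 : ∑ j ∈ range L, gb m j = 0 := by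
        apply sum_eq_zero
        intro j hj
        unfold gb
        rw [if_pos]
        refine le_trans (pow_le_pow_right₀ (by norm_num) ?_) (not_lt.1 hL)
        simpa using hj
      rw [h0, zero_add]
      have h1 : (m : ℝ) ^ 2 ≤ 4 ^ (L + 1) := by
        have h2 : (m : ℝ) ≤ 2 ^ (L + 1) := by exact_mod_cast h.le
        have h3 : (4 : ℝ) ^ (L + 1) = (2 ^ (L + 1)) ^ 2 := by
          rw [← pow_mul, mul_comm, pow_mul]
          norm_num
        rw [h3]
        gcongr
      have h4 : (0 : ℝ) < 4 ^ L := by positivity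
      have h5 : (m : ℝ) ^ 2 ≤ 4 ^ L * 4 := by
        rw [← pow_succ]
        exact h1
      rw [pow_succ]
      rw [le_sub_iff_add_le, div_add_div _ _ (by positivity) (by positivity),
        div_le_div_iff₀ (by positivity) (by positivity)]
      have h6 := mul_le_mul_of_nonneg_left h5 h4.le
      nlinarith

/-- The cross term after `L` steps is a small part of the initial square norm. -/
theorem iter_crs_le {L : ℕ} (hm : 0 < m) (hL : 12 * (m : ℝ) ^ 3 ≤ 4 ^ L) {s : State m}
    (h : Valid s) : K^[L] crs s ≤ 3 / m * nrm s := by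
  have hm' : (0 : ℝ) < m := by exact_mod_cast hm
  have hm1 : (1 : ℝ) ≤ m := by exact_mod_cast hm
  have h0 : m < 2 ^ L := by
    by_contra h1
    have h2 : (2 : ℝ) ^ L ≤ m := by exact_mod_cast not_lt.1 h1
    have h3 : (4 : ℝ) ^ L ≤ m ^ 2 := by
      calc (4 : ℝ) ^ L = (2 ^ L) ^ 2 := by
            rw [← pow_mul, mul_comm, pow_mul]
            norm_num
        _ ≤ m ^ 2 := by gcongr
    nlinarith [pow_pos hm' 2]
  rw [← Cr_zero]
  refine (iter_Cr_le L 0 h).trans ?_
  gcongr
  · exact nrm_nonneg s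
  · simp only [zero_add]
    have h1 := sum_gb_le hm h0
    have h2 : 4 * (m : ℝ) ^ 2 / 4 ^ L ≤ 1 / (3 * m) := by
      rw [div_le_div_iff₀ (by positivity) (by positivity)]
      nlinarith
    have h3 : (0 : ℝ) ≤ (8 * m / 3) / 4 ^ L := by positivity
    have h4 : (1 : ℝ) / (3 * m) + 32 / (3 * m) / 4 = 3 / m := by
      field_simp
      norm_num
    linarith

end Vale.Agent.P162.H915
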