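import Vale.Agent.P162.H915.Kernel

/-!
# P162, part (A) for every even `n`: the occupancy term
-/

open Finset Equiv

namespace Vale.Agent.P162.H915

open Vale.Agent.P162.S2 (avg avg_const avg_add avg_sub avg_mul_left avg_mul_right avg_mono
  avg_nonneg avg_sum avg_prod avg_comm avg_equiv)

variable {m : ℕ}

/-- `G` looks only at the positions in `B`. -/
def Loc (B : Set (X m)) (G : State m → ℝ) : Prop :=
  ∀ s s' : State m, (∀ x ∈ B, (x ∈ s.1 ↔ x ∈ s'.1) ∧ s.2 x = s'.2 x) → G s = G s'

theorem Loc.mono {B B' : Set (X m)} {G : State m → ℝ} (h : Loc B G) (hB : B ⊆ B') : Loc B' G :=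
  fun s s' hs => h s s' fun x hx => hs x (hB hx)

/-- Positions that feed `B`. -/
def pre (B : Set (X m)) : Set (X m) := {x | rp x ∈ op '' B}

theorem next_agree {B : Set (X m)} {s s' : State m} {c c' : Coin m}
    (hs : ∀ x ∈ pre B, (x ∈ s.1 ↔ x ∈ s'.1) ∧ s.2 x = s'.2 x) (hc : ∀ y ∈ op '' B, c y = c' y) :
    ∀ z ∈ B, (z ∈ (next s c).1 ↔ z ∈ (next s' c').1) ∧ (next s c).2 z = (next s' c').2 z := by
  intro z hz
  have hy : op z ∈ op '' B := ⟨z, hz, rfl⟩
  have h1 : ∀ b, inp b (op z) ∈ pre B := by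
    intro b
    change rp (inp b (op z)) ∈ op '' B
    rw [rp_inp]
    exact hy
  simp only [next, mem_map_equiv, shuffle_symm_apply, hc _ hy]
  constructor
  · exact (hs _ (h1 _)).1
  · simp only [av, mate_inp]
    rw [if_congr (or_congr (hs _ (h1 _)).1 (hs _ (h1 _)).1) (hs _ (h1 _)).2
      (by rw [(hs _ (h1 _)).2, (hs _ (h1 _)).2])]

theorem Loc.K {B : Set (X m)} {G : State m → ℝ} (h : Loc B G) : Loc (pre B) (H915.K G) := by
  intro s s' hs
  exact avg_congr fun c => h _ _ (next_agree hs fun _ _ => rfl)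

theorem K_mul {B₁ B₂ : Set (X m)} {G₁ G₂ : State m → ℝ} (h₁ : Loc B₁ G₁) (h₂ : Loc B₂ G₂)
    (h : Disjoint (op '' B₁) (op '' B₂)) (s : State m) :
    K (fun s => G₁ s * G₂ s) s = K G₁ s * K G₂ s := by
  apply avg_mul_of_disjoint (op '' B₁) (op '' B₂) h
  · intro c c' hc
    exact h₁ _ _ (next_agree (fun _ _ => ⟨Iff.rfl, rfl⟩) hc)
  · intro c c' hc
    exact h₂ _ _ (next_agree (fun _ _ => ⟨Iff.rfl, rfl⟩) hc)

/-- The backward cone of `x`. -/
def cone (i : ℕ) (x : X m) : Set (X m) := {z | 0 < H i (2 ^ i * z) x}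

theorem H_out (i : ℕ) (b : Bool) (z x : X m) :
    H i (2 ^ i * out b (rp z)) x = H i (2 ^ (i + 1) * z + (if b then 2 ^ i else 0)) x := by
  apply H_congr
  have h : 2 ^ i * (out b (rp z) : ℕ) = 2 ^ i * (2 * (rp z : ℕ)) + (if b then 2 ^ i else 0) := by
    cases b <;> simp [out, mul_add]
  rw [h, pow_succ, mul_assoc]
  exact (Nat.ModEq.mul_left _ (two_mul_mod z).symm).add_right _

theorem cone_succ {i : ℕ} {x z : X m} (h : rp z ∈ op '' cone i x) : z ∈ cone (i + 1) x := by
  obtain ⟨w, hw, hz⟩ := h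
  have hw' : w = out (ob w) (rp z) := by
    rw [← hz, out_ob_op]
  change 0 < H i (2 ^ i * w) x at hw
  change 0 < H (i + 1) (2 ^ (i + 1) * z) x
  rw [hw', H_out] at hw
  rw [H_succ]
  cases hob : ob w
  · simp only [hob, Bool.false_eq_true, if_false, add_zero] at hw
    omega
  · simp only [hob, if_true] at hw
    omega

theorem pre_cone (i : ℕ) (x : X m) : pre (cone i x) ⊆ cone (i + 1) x := fun _ hz => cone_succ hz

theorem disjoint_cone {i : ℕ} (h : 2 ^ (i + 1) ≤ m) (x : X m) :
    Disjoint (op '' cone i x) (op '' cone i (mate x)) := by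
  rw [Set.disjoint_left]
  intro y h1 h2
  have h1' : inp false y ∈ cone (i + 1) x := cone_succ (by rwa [rp_inp])
  have h2' : inp false y ∈ cone (i + 1) (mate x) := cone_succ (by rwa [rp_inp])
  change 0 < H (i + 1) (2 ^ (i + 1) * (inp false y : X m)) x at h1'
  change 0 < H (i + 1) (2 ^ (i + 1) * (inp false y : X m)) (mate x) at h2'
  rw [H_mate h x h1'] at h2'
  exact lt_irrefl _ h2'

theorem mem_cone_zero (x : X m) : x ∈ cone 0 x := by
  simp [cone, H_zero, Nat.mod_eq_of_lt x.isLt]

/-- The square weight at `x`. -/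
def sqx (x : X m) (s : State m) : ℝ := s.2 x ^ 2

/-- The occupation of `x`. -/
def ocx (x : X m) (s : State m) : ℝ := if x ∈ s.1 then 1 else 0

theorem iter_sq_mul_occ (x : X m) (j : ℕ) (h : 2 ^ j ≤ m) :
    Loc (cone j x) (K^[j] (sqx x)) ∧ Loc (cone j (mate x)) (K^[j] (ocx (mate x))) ∧
      K^[j] (fun s => sqx x s * ocx (mate x) s) =
        fun s => K^[j] (sqx x) s * K^[j] (ocx (mate x)) s := by
  induction j with
  | zero =>
    refine ⟨?_, ?_, rfl⟩
    · intro s s' hs
      simp only [Function.iterate_zero, id, sqx]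
      rw [(hs x (mem_cone_zero x)).2]
    · intro s s' hs
      simp only [Function.iterate_zero, id, ocx]
      rw [if_congr (hs _ (mem_cone_zero _)).1 rfl rfl]
  | succ j ih =>
    have h' : 2 ^ j ≤ m := le_trans (Nat.pow_le_pow_right (by norm_num) (Nat.le_succ j)) h
    obtain ⟨h1, h2, h3⟩ := ih h'
    simp only [Function.iterate_succ_apply']
    refine ⟨h1.K.mono (pre_cone _ _), h2.K.mono (pre_cone _ _), ?_⟩
    rw [h3]
    funext s
    exact K_mul h1 h2 (disjoint_cone h x) s

/-- Linear functionals of the occupied set. -/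
theorem K_lin (φ : X m → ℝ) : K (fun s => ∑ x ∈ s.1, φ x) = fun s => ∑ x ∈ s.1, P φ x := by
  funext s
  simp only [K, next, sum_map, Equiv.toEmbedding_apply, avg_sum]
  apply sum_congr rfl
  intro x _
  simp only [shuffle_apply]
  rw [avg_coord (rp x) (fun b => φ (out (xor (hb x) b) (rp x))), avg_bool, P]
  cases hb x <;> simp [add_comm]

theorem iter_lin (t : ℕ) (φ : X m → ℝ) :
    K^[t] (fun s => ∑ x ∈ s.1, φ x) = fun s => ∑ x ∈ s.1, (P^[t] φ) x := by
  induction t generalizing φ with
  | zero => rfl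
  | succ t ih =>
    rw [Function.iterate_succ, Function.comp, K_lin, ih, Function.iterate_succ, Function.comp]

theorem iter_P (t i : ℕ) (x : X m) : P^[t] (fun z => p i z x) = fun z => p (i + t) z x := by
  induction t generalizing i with
  | zero => rfl
  | succ t ih =>
    rw [Function.iterate_succ, Function.comp, P_p, ih]
    have : i + 1 + t = i + (t + 1) := by omega
    rw [this]

theorem P_smul (r : ℝ) (φ : X m → ℝ) : P (fun z => r * φ z) = fun z => r * P φ z := by
  funext z
  simp only [P]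
  ring

theorem iter_P_smul (t : ℕ) (r : ℝ) (φ : X m → ℝ) :
    P^[t] (fun z => r * φ z) = fun z => r * (P^[t] φ) z := by
  induction t generalizing φ with
  | zero => rfl
  | succ t ih =>
    rw [Function.iterate_succ]
    change P^[t] (P fun z => r * φ z) = fun z => r * (P^[t] (P φ)) z
    rw [P_smul, ih]

theorem iter_ocx (t : ℕ) (x : X m) :
    K^[t] (ocx x) = fun s => ∑ z ∈ s.1, p t z x := by
  have h : (ocx x : State m → ℝ) = fun s => ∑ z ∈ s.1, p 0 z x := by
    funext s
    simp [ocx, p_zero]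
  rw [h, iter_lin, iter_P]
  simp

theorem occ_eq : (occ : State m → ℝ) = fun s => ∑ x, sqx x s * ocx (mate x) s := by
  funext s
  simp only [occ, sqx, ocx]
  apply sum_congr rfl
  intro x _
  split <;> simp

theorem nrm_eq : (nrm : State m → ℝ) = fun s => ∑ x, sqx x s := rfl

theorem iter_occ {q : ℕ} (h : 2 ^ q ≤ m) (s : State m) :
    K^[q] occ s = ∑ x, K^[q] (sqx x) s * ∑ z ∈ s.1, p q z (mate x) := by
  rw [occ_eq, iter_sum]
  apply sum_congr rfl
  intro x _
  rw [(iter_sq_mul_occ x q h).2.2, iter_ocx]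

theorem iter_sqx_nonneg (t : ℕ) (x : X m) (s : State m) : 0 ≤ K^[t] (sqx x) s := by
  induction t generalizing s with
  | zero => exact sq_nonneg _
  | succ t ih =>
    rw [Function.iterate_succ_apply']
    exact avg_nonneg fun c => ih _

theorem occ_le_nrm (s : State m) : occ s ≤ nrm s := by
  apply sum_le_sum
  intro x _
  split
  · exact le_rfl
  · exact sq_nonneg _

open Classical in
/-- Some backward cone is too full. -/
noncomputable def bad (q : ℕ) (s : State m) : ℝ :=
  if ∀ x : X m, ∑ z ∈ s.1, p q z x ≤ 15 / 16 then 0 else 1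

theorem iter_occ_le {q : ℕ} (h : 2 ^ q ≤ m) {s : State m} (hs : Valid s) :
    K^[q] occ s ≤ 15 / 16 * K^[q] nrm s + bad q s := by
  by_cases hb : ∀ x : X m, ∑ z ∈ s.1, p q z x ≤ 15 / 16
  · rw [bad, if_pos hb, add_zero, iter_occ h, nrm_eq, iter_sum, mul_sum]
    apply sum_le_sum
    intro x _
    rw [mul_comm]
    gcongr
    · exact iter_sqx_nonneg q x s
    · exact hb _
  · rw [bad, if_neg hb]
    have h1 : K^[q] occ s ≤ K^[q] nrm s := iter_mono q (fun s _ => occ_le_nrm s) hs
    have h2 : K^[q] nrm s ≤ nrm s := iter_nrm_le q hs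
    have h3 : nrm s ≤ 1 := hs.norm
    have h4 : 0 ≤ K^[q] nrm s := by
      rw [nrm_eq, iter_sum]
      exact sum_nonneg fun x _ => iter_sqx_nonneg q x s
    linarith

/-! ### Chernoff bound -/

/-- Exponential functionals of the occupied set. -/
noncomputable def Ex (φ : X m → ℝ) (s : State m) : ℝ := Real.exp (∑ x ∈ s.1, φ x)

theorem avg_exp_le (a b : ℝ) :
    (Real.exp a + Real.exp b) / 2 ≤ Real.exp ((a + b) / 2 + (a - b) ^ 2 / 8) := by
  have h1 : (Real.exp a + Real.exp b) / 2 = Real.exp ((a + b) / 2) * Real.cosh ((a - b) / 2) := by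
    rw [Real.cosh_eq, mul_div_assoc', mul_add, ← Real.exp_add, ← Real.exp_add]
    congr 3
    · ring
    · ring
  rw [h1, Real.exp_add]
  gcongr
  refine (Real.cosh_le_exp_half_sq _).trans ?_
  apply le_of_eq
  congr 1
  ring

theorem K_Ex_le (φ : X m → ℝ) (s : State m) :
    K (Ex φ) s ≤ Real.exp ((∑ x, Dl φ x ^ 2) / 16) * Ex (P φ) s := by
  let g : Fin m → Bool → ℝ := fun y b =>
    (if inp false y ∈ s.1 then φ (out b y) else 0) + (if inp true y ∈ s.1 then φ (out (!b) y) else 0)
  have h1 : ∀ c : Coin m, Ex φ (next s c) = ∏ y, Real.exp (g y (c y)) := by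
    intro c
    rw [← Real.exp_sum]
    simp only [Ex, next, sum_map, Equiv.toEmbedding_apply]
    congr 1
    have h2 : ∑ x ∈ s.1, φ (shuffle m c x) = ∑ x, if x ∈ s.1 then φ (shuffle m c x) else 0 := by
      rw [sum_ite_mem, univ_inter]
    rw [h2, sum_inp]
    apply sum_congr rfl
    intro y _
    simp only [shuffle_inp, g, Bool.false_xor, Bool.true_xor]
  have h2 : K (Ex φ) s = ∏ y, avg fun b => Real.exp (g y b) := by
    simp only [K, h1]
    exact avg_prod_coins (fun y b => Real.exp (g y b))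
  have h3 : ∑ x ∈ s.1, P φ x = ∑ y, ((g y false + g y true) / 2) := by
    have : ∑ x ∈ s.1, P φ x = ∑ x, if x ∈ s.1 then P φ x else 0 := by
      rw [sum_ite_mem, univ_inter]
    rw [this, sum_inp]
    apply sum_congr rfl
    intro y _
    simp only [P, rp_inp, g, Bool.not_false, Bool.not_true]
    split <;> split <;> ring
  rw [h2, Ex, ← Real.exp_add, h3]
  have h4 : ∑ x, Dl φ x ^ 2 = ∑ y, 2 * (φ (out false y) - φ (out true y)) ^ 2 := by
    rw [sum_inp]
    apply sum_congr rfl
    intro y _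
    simp only [Dl, rp_inp]
    ring
  rw [h4, sum_div, ← sum_add_distrib, Real.exp_sum]
  apply prod_le_prod
  · intro y _
    exact avg_nonneg fun b => (Real.exp_pos _).le
  · intro y _
    rw [avg_bool]
    refine (avg_exp_le _ _).trans ?_
    apply Real.exp_le_exp.2
    have h5 : (g y false - g y true) ^ 2 ≤ (φ (out false y) - φ (out true y)) ^ 2 := by
      simp only [g, Bool.not_false, Bool.not_true]
      split <;> split
      · have : (φ (out false y) + φ (out true y) - (φ (out true y) + φ (out false y))) ^ 2 = 0 := by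
          ring
        rw [this]
        positivity
      · simp
      · simp
        apply le_of_eq
        ring
      · simp
        positivity
    linarith

theorem iter_mono' (t : ℕ) {G H : State m → ℝ} (h : ∀ s, G s ≤ H s) (s : State m) :
    K^[t] G s ≤ K^[t] H s := by
  induction t generalizing G H with
  | zero => exact h s
  | succ t ih =>
    rw [Function.iterate_succ, Function.comp, Function.comp]
    exact ih fun s => avg_mono fun c => h _

theorem iter_Ex_le (t : ℕ) (φ : X m → ℝ) (s : State m) :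
    K^[t] (Ex φ) s ≤
      Real.exp ((∑ i ∈ range t, ∑ x, Dl (P^[i] φ) x ^ 2) / 16) * Ex (P^[t] φ) s := by
  induction t generalizing φ with
  | zero => simp
  | succ t ih =>
    rw [Function.iterate_succ, Function.comp]
    calc K^[t] (K (Ex φ)) s ≤ K^[t] (fun s => Real.exp ((∑ x, Dl φ x ^ 2) / 16) * Ex (P φ) s) s :=
          iter_mono' t (fun s => K_Ex_le φ s) s
      _ = Real.exp ((∑ x, Dl φ x ^ 2) / 16) * K^[t] (Ex (P φ)) s := by rw [iter_mul_left]
      _ ≤ Real.exp ((∑ x, Dl φ x ^ 2) / 16) *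
          (Real.exp ((∑ i ∈ range t, ∑ x, Dl (P^[i] (P φ)) x ^ 2) / 16) * Ex (P^[t] (P φ)) s) := by
          gcongr
          exact ih (P φ)
      _ = _ := by
          rw [← mul_assoc, ← Real.exp_add, sum_range_succ' _ t]
          congr 2
          rw [Function.iterate_zero, id]
          have : ∀ i, P^[i + 1] φ = P^[i] (P φ) := fun i => rfl
          simp only [this]
          ring

theorem Dl_smul (r : ℝ) (φ : X m → ℝ) (z : X m) : Dl (fun z => r * φ z) z = r * Dl φ z := by
  simp only [Dl]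
  ring

theorem sum_Dl_sq_le (r : ℝ) (q i : ℕ) (y : X m) :
    ∑ x, Dl (P^[i] (fun z => r * p q z y)) x ^ 2 ≤ 2 * m * r ^ 2 / 4 ^ (q + i) := by
  rw [iter_P_smul, iter_P]
  have h : ∀ x : X m, Dl (fun z => r * p (q + i) z y) x ^ 2 ≤ r ^ 2 / 4 ^ (q + i) := by
    intro x
    rw [Dl_smul, mul_pow, div_eq_mul_one_div]
    gcongr
    rw [← sq_abs]
    calc |Dl (fun z => p (q + i) z y) x| ^ 2 ≤ (1 / 2 ^ (q + i)) ^ 2 := by
          gcongr
          exact abs_Dl_p _ _ _
      _ = 1 / 4 ^ (q + i) := by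
          rw [div_pow, one_pow, ← pow_mul, mul_comm (q + i), pow_mul]
          norm_num
  calc ∑ x, Dl (fun z => r * p (q + i) z y) x ^ 2 ≤ ∑ _x : X m, r ^ 2 / 4 ^ (q + i) :=
        sum_le_sum fun x _ => h x
    _ = _ := by
        rw [sum_const, card_univ, Fintype.card_fin, nsmul_eq_mul]
        push_cast
        ring

/-- (A.iv): the occupation of a backward cone after seven steps. -/
theorem iter_Ex_p_le {q : ℕ} (hq : m < 2 ^ (q + 1)) {s : State m} (hs : Valid s) (y : X m) :
    K^[7] (Ex fun z => (27 / 1024 * m) * p q z y) s ≤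
      Real.exp ((27 / 1024 * m) * (231 / 256) + (243 / 524288) * m) := by
  have hy := y.isLt
  have hm0 : 0 < m := by omega
  have hm : (0 : ℝ) < m := by exact_mod_cast hm0
  have hq' : (m : ℝ) ≤ 2 * 2 ^ q := by
    have : (m : ℝ) ≤ 2 ^ (q + 1) := by exact_mod_cast hq.le
    rw [pow_succ] at this
    linarith
  have h2q : (0 : ℝ) < 2 ^ q := by positivity
  set r : ℝ := 27 / 1024 * m with hr
  have hr0 : 0 < r := by positivity
  refine (iter_Ex_le 7 _ s).trans ?_
  rw [Ex, ← Real.exp_add, add_comm]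
  apply Real.exp_le_exp.2
  apply add_le_add
  · rw [iter_P_smul, iter_P, ← mul_sum]
    gcongr
    have h1 : ∀ z ∈ s.1, p (q + 7) z y ≤ 1 / (2 * m) + 1 / (64 * m) := by
      intro z _
      refine (p_le _ _ _).trans ?_
      gcongr
      rw [pow_add]
      linarith
    calc ∑ z ∈ s.1, p (q + 7) z y ≤ ∑ z ∈ s.1, (1 / (2 * (m : ℝ)) + 1 / (64 * m)) :=
          sum_le_sum h1
      _ = s.1.card * (1 / (2 * (m : ℝ)) + 1 / (64 * m)) := by
          rw [sum_const, nsmul_eq_mul]
      _ ≤ (7 * m / 4) * (1 / (2 * (m : ℝ)) + 1 / (64 * m)) := by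
          gcongr
          have := hs.card
          have h2 : (4 * s.1.card : ℝ) ≤ 7 * m := by exact_mod_cast this
          linarith
      _ = 231 / 256 := by
          field_simp
          norm_num
  · have h4q : (m : ℝ) ^ 2 ≤ 4 * 4 ^ q := by
      have : (4 : ℝ) * 4 ^ q = (2 * 2 ^ q) ^ 2 := by
        rw [mul_pow, ← pow_mul, mul_comm q, pow_mul]
        norm_num
      rw [this]
      gcongr
    have h4 : (0 : ℝ) < 4 ^ q := by positivity
    calc (∑ i ∈ range 7, ∑ x, Dl (P^[i] fun z => r * p q z y) x ^ 2) / 16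
        ≤ (∑ i ∈ range 7, 2 * m * r ^ 2 / 4 ^ (q + i)) / 16 := by
          gcongr with i _
          exact sum_Dl_sq_le r q i y
      _ ≤ (m / 6) * r ^ 2 / 4 ^ q := by
          simp only [sum_range_succ, sum_range_zero, pow_add]
          rw [div_le_div_iff₀ (by norm_num) h4]
          have h5 : (0 : ℝ) ≤ 2 * m * r ^ 2 := by positivity
          have h6 : ∀ k : ℝ, 0 < k → 2 * m * r ^ 2 / (4 ^ q * k) * 4 ^ q = 2 * m * r ^ 2 / k := by
            intro k hk
            field_simp
          simp only [add_mul, h6 _ (by norm_num : (0 : ℝ) < 4 ^ 0),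
            h6 _ (by norm_num : (0 : ℝ) < 4 ^ 1), h6 _ (by norm_num : (0 : ℝ) < 4 ^ 2),
            h6 _ (by norm_num : (0 : ℝ) < 4 ^ 3), h6 _ (by norm_num : (0 : ℝ) < 4 ^ 4),
            h6 _ (by norm_num : (0 : ℝ) < 4 ^ 5), h6 _ (by norm_num : (0 : ℝ) < 4 ^ 6)]
          nlinarith
      _ ≤ (243 / 524288) * m := by
          rw [div_le_iff₀ h4, hr]
          nlinarith

theorem iter_bad_le {q : ℕ} (hq : m < 2 ^ (q + 1)) {s : State m} (hs : Valid s) :
    K^[7] (bad q) s ≤ 2 * m * Real.exp (-(243 / 524288 * m)) := by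
  set r : ℝ := 27 / 1024 * m with hr
  have hr0 : 0 ≤ r := by positivity
  have h1 : ∀ s : State m, bad q s ≤
      ∑ y : X m, Real.exp (-(r * (15 / 16))) * Ex (fun z => r * p q z y) s := by
    intro s
    rw [bad]
    split
    · exact sum_nonneg fun y _ => mul_nonneg (Real.exp_pos _).le (Real.exp_pos _).le
    · rename_i h
      push Not at h
      obtain ⟨y, hy⟩ := h
      refine le_trans ?_ (single_le_sum (f := fun y : X m =>
        Real.exp (-(r * (15 / 16))) * Ex (fun z => r * p q z y) s)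
        (fun y _ => mul_nonneg (Real.exp_pos _).le (Real.exp_pos _).le) (mem_univ y))
      simp only [Ex]
      rw [← Real.exp_add, ← mul_sum]
      apply Real.one_le_exp
      nlinarith
  calc K^[7] (bad q) s ≤ K^[7] (fun s => ∑ y : X m,
        Real.exp (-(r * (15 / 16))) * Ex (fun z => r * p q z y) s) s := iter_mono' 7 h1 s
    _ = ∑ y : X m, Real.exp (-(r * (15 / 16))) * K^[7] (Ex fun z => r * p q z y) s := by
        rw [iter_sum]
        simp only [iter_mul_left]
    _ ≤ ∑ y : X m, Real.exp (-(r * (15 / 16))) *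
          Real.exp (r * (231 / 256) + (243 / 524288) * m) := by
        gcongr with y _
        exact iter_Ex_p_le hq hs y
    _ = _ := by
        rw [sum_const, card_univ, Fintype.card_fin, nsmul_eq_mul, ← Real.exp_add]
        push_cast
        congr 2
        rw [hr]
        ring

end Vale.Agent.P162.H915
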