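import Vale.Agent.P162.H915.Basic

/-!
# P162, part (A) for every even `n`: one step of the conditional weights

State: the set `S` of the occupied positions (the positions of the revealed cards) and a function
`v` on the positions that vanishes on `S` and has sum zero (the conditional law of one further card
minus the uniform law on the complement of `S`).
-/

open Finset Equiv

namespace Vale.Agent.P162.H915

open Vale.Agent.P162.S2 (avg avg_const avg_add avg_sub avg_mul_left avg_mul_right avg_mono
  avg_nonneg avg_sum avg_prod avg_comm avg_equiv)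

variable {m : ℕ}

/-- States: occupied set and weights. -/
abbrev State (m : ℕ) := Finset (X m) × (X m → ℝ)

/-- Weights are averaged over the switches without an occupied input. -/
noncomputable def av (S : Finset (X m)) (v : X m → ℝ) (x : X m) : ℝ :=
  if x ∈ S ∨ mate x ∈ S then v x else (v x + v (mate x)) / 2

/-- One step of the state with coins `c`. -/
noncomputable def next (s : State m) (c : Coin m) : State m :=
  (s.1.map (shuffle m c).toEmbedding, fun z => av s.1 s.2 ((shuffle m c).symm z))

/-- The Markov operator of one step. -/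
noncomputable def K (G : State m → ℝ) (s : State m) : ℝ := avg fun c => G (next s c)

/-- Pairing of weights and test functions. -/
def pr (v φ : X m → ℝ) : ℝ := ∑ x, v x * φ x

/-- Valid states. -/
structure Valid (s : State m) : Prop where
  zero : ∀ x ∈ s.1, s.2 x = 0
  sum : ∑ x, s.2 x = 0
  norm : ∑ x, s.2 x ^ 2 ≤ 1
  card : 4 * s.1.card ≤ 7 * m

/-- The square norm. -/
def nrm (s : State m) : ℝ := ∑ x, s.2 x ^ 2

/-- The part of the square norm at the positions with an occupied mate. -/
def occ (s : State m) : ℝ := ∑ x, if mate x ∈ s.1 then s.2 x ^ 2 else 0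

/-- The cross term. -/
def crs (s : State m) : ℝ := ∑ x, s.2 x * s.2 (mate x)

theorem nrm_nonneg (s : State m) : 0 ≤ nrm s := sum_nonneg fun _ _ => sq_nonneg _

theorem sum_av (S : Finset (X m)) (v : X m → ℝ) : ∑ x, av S v x = ∑ x, v x := by
  rw [sum_inp, sum_inp]
  apply sum_congr rfl
  intro y _
  simp only [av, mate_inp, Bool.not_false, Bool.not_true]
  by_cases h1 : inp false y ∈ S <;> by_cases h2 : inp true y ∈ S <;> simp [h1, h2]
  ring

theorem av_zero {S : Finset (X m)} {v : X m → ℝ} (h : ∀ x ∈ S, v x = 0) {x : X m} (hx : x ∈ S) :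
    av S v x = 0 := by
  simp [av, hx, h x hx]

theorem sum_av_sq {S : Finset (X m)} {v : X m → ℝ} (h : ∀ x ∈ S, v x = 0) :
    ∑ x, av S v x ^ 2 = (∑ x, v x ^ 2) / 2 + (∑ x, if mate x ∈ S then v x ^ 2 else 0) / 2 +
      (∑ x, v x * v (mate x)) / 2 := by
  rw [sum_inp, sum_inp, sum_inp, sum_inp, sum_div, sum_div, sum_div, ← sum_add_distrib,
    ← sum_add_distrib]
  apply sum_congr rfl
  intro y _
  simp only [av, mate_inp, Bool.not_false, Bool.not_true]
  by_cases h1 : inp false y ∈ S <;> by_cases h2 : inp true y ∈ S
  · simp [h1, h2, h _ h1, h _ h2]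
  · simp [h1, h2, h _ h1]
  · simp [h1, h2, h _ h2]
  · simp [h1, h2]
    ring

theorem sum_av_sq_le (S : Finset (X m)) (v : X m → ℝ) :
    ∑ x, av S v x ^ 2 ≤ ∑ x, v x ^ 2 := by
  rw [sum_inp, sum_inp]
  apply sum_le_sum
  intro y _
  simp only [av, mate_inp, Bool.not_false, Bool.not_true]
  by_cases h1 : inp false y ∈ S <;> by_cases h2 : inp true y ∈ S <;> simp [h1, h2]
  nlinarith [sq_nonneg (v (inp false y) - v (inp true y))]

theorem sum_next (s : State m) (c : Coin m) (f : ℝ → X m → ℝ) :
    ∑ z, f ((next s c).2 z) z = ∑ x, f (av s.1 s.2 x) (shuffle m c x) := by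
  rw [← Equiv.sum_comp (shuffle m c)]
  simp [next]

theorem nrm_next (s : State m) (c : Coin m) : nrm (next s c) = ∑ x, av s.1 s.2 x ^ 2 :=
  sum_next s c (fun r _ => r ^ 2)

theorem nrm_next_le (s : State m) (c : Coin m) : nrm (next s c) ≤ nrm s := by
  rw [nrm_next]
  exact sum_av_sq_le _ _

theorem next_valid {s : State m} (h : Valid s) (c : Coin m) : Valid (next s c) where
  zero := by
    intro z hz
    simp only [next, mem_map_equiv] at hz ⊢
    exact av_zero h.zero hz
  sum := by
    have := sum_next s c (fun r _ => r)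
    rw [this, sum_av, h.sum]
  norm := (nrm_next_le s c).trans h.norm
  card := by
    simp only [next, card_map]
    exact h.card

/-- (A.i) -/
theorem K_nrm {s : State m} (h : Valid s) : K nrm s = nrm s / 2 + occ s / 2 + crs s / 2 := by
  simp only [K, nrm_next, sum_av_sq h.zero]
  rw [avg_const]
  rfl

/-! ### The operator `K` -/

theorem K_add (G H : State m → ℝ) : K (fun s => G s + H s) = fun s => K G s + K H s := by
  funext s
  simp only [K, avg_add]

theorem K_const (r : ℝ) : K (fun _ : State m => r) = fun _ => r := by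
  funext s
  simp only [K, avg_const]

theorem K_mul_left (r : ℝ) (G : State m → ℝ) : K (fun s => r * G s) = fun s => r * K G s := by
  funext s
  simp only [K, avg_mul_left]

theorem K_sum {ι : Type*} (t : Finset ι) (G : ι → State m → ℝ) :
    K (fun s => ∑ i ∈ t, G i s) = fun s => ∑ i ∈ t, K (G i) s := by
  funext s
  simp only [K, avg_sum]

theorem iter_add (t : ℕ) (G H : State m → ℝ) :
    K^[t] (fun s => G s + H s) = fun s => K^[t] G s + K^[t] H s := by
  induction t generalizing G H with
  | zero => rfl
  | succ t ih => simp only [Function.iterate_succ, Function.comp, K_add, ih]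

theorem iter_const (t : ℕ) (r : ℝ) : K^[t] (fun _ : State m => r) = fun _ => r := by
  induction t with
  | zero => rfl
  | succ t ih => simp only [Function.iterate_succ, Function.comp, K_const, ih]

theorem iter_mul_left (t : ℕ) (r : ℝ) (G : State m → ℝ) :
    K^[t] (fun s => r * G s) = fun s => r * K^[t] G s := by
  induction t generalizing G with
  | zero => rfl
  | succ t ih => simp only [Function.iterate_succ, Function.comp, K_mul_left, ih]

theorem iter_sum {ι : Type*} (u : Finset ι) (t : ℕ) (G : ι → State m → ℝ) :
    K^[t] (fun s => ∑ i ∈ u, G i s) = fun s => ∑ i ∈ u, K^[t] (G i) s := by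
  induction t generalizing G with
  | zero => rfl
  | succ t ih => simp only [Function.iterate_succ, Function.comp, K_sum, ih]

/-- Comparison of two functionals on the valid states. -/
theorem K_mono {G H : State m → ℝ} (h : ∀ s, Valid s → G s ≤ H s) {s : State m} (hs : Valid s) :
    K G s ≤ K H s :=
  avg_mono fun c => h _ (next_valid hs c)

theorem iter_mono (t : ℕ) {G H : State m → ℝ} (h : ∀ s, Valid s → G s ≤ H s) {s : State m}
    (hs : Valid s) : K^[t] G s ≤ K^[t] H s := by
  induction t generalizing G H with
  | zero => exact h s hs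
  | succ t ih =>
    rw [Function.iterate_succ, Function.comp, Function.comp]
    exact ih fun s hs => K_mono h hs

theorem iter_congr (t : ℕ) {G H : State m → ℝ} (h : ∀ s, Valid s → G s = H s) {s : State m}
    (hs : Valid s) : K^[t] G s = K^[t] H s :=
  le_antisymm (iter_mono t (fun s hs => (h s hs).le) hs) (iter_mono t (fun s hs => (h s hs).ge) hs)

theorem K_nrm_le (s : State m) : K nrm s ≤ nrm s := by
  calc K nrm s = avg fun c => nrm (next s c) := rfl
    _ ≤ avg fun _ : Coin m => nrm s := avg_mono fun c => nrm_next_le s c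
    _ = nrm s := avg_const _

theorem iter_nrm_le (t : ℕ) {s : State m} (hs : Valid s) : K^[t] nrm s ≤ nrm s := by
  induction t with
  | zero => exact le_rfl
  | succ t ih =>
    rw [Function.iterate_succ, Function.comp]
    exact (iter_mono t (fun s _ => K_nrm_le s) hs).trans ih

theorem iter_nrm_anti {t u : ℕ} (h : t ≤ u) {s : State m} (hs : Valid s) :
    K^[u] nrm s ≤ K^[t] nrm s := by
  obtain ⟨r, rfl⟩ := Nat.exists_eq_add_of_le h
  rw [Function.iterate_add_apply]
  exact iter_mono t (fun s hs => iter_nrm_le r hs) hs

/-! ### The covariance identity -/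

theorem avg_coord {ι : Type*} [Fintype ι] [DecidableEq ι] (y : ι) (f : Bool → ℝ) :
    avg (fun c : ι → Bool => f (c y)) = avg f := by
  have h := avg_prod_coins (fun y' b => if y' = y then f b else 1)
  have h1 : ∀ c : ι → Bool, ∏ y', (if y' = y then f (c y') else 1) = f (c y) := by
    intro c
    rw [Finset.prod_ite_eq' univ y]
    simp
  simp only [h1] at h
  rw [h]
  have h2 : ∀ y', avg (fun b => if y' = y then f b else 1) = if y' = y then avg f else 1 := by
    intro y'
    split
    · rfl
    · exact avg_const 1
  simp only [h2]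
  rw [Finset.prod_ite_eq' univ y]
  simp

theorem avg_coord_mul {ι : Type*} [Fintype ι] [DecidableEq ι] (y y' : ι) (f g : Bool → ℝ) :
    avg (fun c : ι → Bool => f (c y) * g (c y')) =
      avg f * avg g + if y = y' then (f false - f true) * (g false - g true) / 4 else 0 := by
  by_cases h : y = y'
  · subst h
    rw [if_pos rfl, avg_coord y (fun b => f b * g b), avg_bool, avg_bool, avg_bool]
    ring
  · rw [if_neg h, add_zero, ← avg_coord y f, ← avg_coord y' g]
    apply avg_mul_of_disjoint {y} {y'}
    · simpa using h
    · intro c c' hc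
      rw [hc y rfl]
    · intro c c' hc
      rw [hc y' rfl]

theorem avg_sum_mul_sum {ι : Type*} [Fintype ι] [DecidableEq ι] (F G : ι → Bool → ℝ) :
    avg (fun c : ι → Bool => (∑ y, F y (c y)) * ∑ y, G y (c y)) =
      (∑ y, avg (F y)) * (∑ y, avg (G y)) +
        ∑ y, (F y false - F y true) * (G y false - G y true) / 4 := by
  simp only [sum_mul_sum, avg_sum, avg_coord_mul, sum_add_distrib]
  congr 1
  apply sum_congr rfl
  intro y _
  rw [sum_ite_eq]
  simp

/-- The one-card operator. -/
noncomputable def P (φ : X m → ℝ) (x : X m) : ℝ := (φ (out false (rp x)) + φ (out true (rp x))) / 2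

/-- The difference at the outputs. -/
def Dl (φ : X m → ℝ) (x : X m) : ℝ := φ (out false (rp x)) - φ (out true (rp x))

/-- Contribution of a switch with coin `b`. -/
noncomputable def con (s : State m) (φ : X m → ℝ) (y : Fin m) (b : Bool) : ℝ :=
  av s.1 s.2 (inp false y) * φ (out b y) + av s.1 s.2 (inp true y) * φ (out (!b) y)

theorem pr_next (s : State m) (c : Coin m) (φ : X m → ℝ) :
    pr (next s c).2 φ = ∑ y, con s φ y (c y) := by
  rw [pr, sum_next s c (fun r z => r * φ z), sum_inp]
  apply sum_congr rfl
  intro y _
  rw [shuffle_inp, shuffle_inp]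
  simp [con]

/-- (A.ii) -/
theorem K_pr_mul {s : State m} (h : Valid s) (φ ψ : X m → ℝ) :
    K (fun s => pr s.2 φ * pr s.2 ψ) s = pr s.2 (P φ) * pr s.2 (P ψ) +
      (∑ x, if mate x ∈ s.1 then s.2 x ^ 2 * (Dl φ x * Dl ψ x) else 0) / 4 := by
  have key : ∀ χ : X m → ℝ, ∑ y, avg (con s χ y) = pr s.2 (P χ) := by
    intro χ
    rw [pr, sum_inp]
    apply sum_congr rfl
    intro y _
    simp only [P, rp_inp, avg_bool, Bool.not_false, Bool.not_true, con]
    have h1 : av s.1 s.2 (inp false y) + av s.1 s.2 (inp true y) =
        s.2 (inp false y) + s.2 (inp true y) := by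
      simp only [av, mate_inp, Bool.not_false, Bool.not_true]
      by_cases h1 : inp false y ∈ s.1 <;> by_cases h2 : inp true y ∈ s.1 <;> simp [h1, h2]
      ring
    linear_combination ((χ (out false y) + χ (out true y)) / 2) * h1
  calc K (fun s => pr s.2 φ * pr s.2 ψ) s
      = avg fun c : Coin m => pr (next s c).2 φ * pr (next s c).2 ψ := rfl
    _ = _ := by
      simp only [pr_next]
      rw [avg_sum_mul_sum, key φ, key ψ]
      congr 1
      rw [sum_inp, sum_div]
      apply sum_congr rfl
      intro y _
      simp only [con, av, mate_inp, Bool.not_false, Bool.not_true, Dl, rp_inp]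
      by_cases h1 : inp false y ∈ s.1 <;> by_cases h2 : inp true y ∈ s.1
      · simp [h1, h2, h.zero _ h1, h.zero _ h2]
      · simp [h1, h2, h.zero _ h1]
        ring
      · simp [h1, h2, h.zero _ h2]
        ring
      · simp only [h1, h2, or_self, if_false]
        ring

end Vale.Agent.P162.H915
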